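import Mathlib

/-! Points of finite second symmetric difference of a norm: they have full measure. -/

namespace Vale.Agent.Lib.P084.Far

open Set Metric Filter Topology MeasureTheory

section OneDim

/-- A convex function on the line has finite second symmetric differences almost everywhere. -/
lemma ae_second_diff {g : ℝ → ℝ} (hg : ConvexOn ℝ univ g) :
    ∀ᵐ t : ℝ, ∃ C : ℝ, ∀ᶠ s in 𝓝 (0 : ℝ), g (t + s) + g (t - s) - 2 * g t ≤ C * s ^ 2 := by
  let D : ℝ → ℝ := fun x => derivWithin g (Ioi x) x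
  have hD : Monotone D := by
    intro a b hab
    have := hg.monotoneOn_rightDeriv (by simp : a ∈ interior univ) (by simp : b ∈ interior univ) hab
    exact this
  have hint : ∀ x : ℝ, x ∈ interior (univ : Set ℝ) := fun x => by simp
  filter_upwards [hD.ae_differentiableAt] with t ht
  obtain ⟨D', hD'⟩ : ∃ D', HasDerivAt D D' t := ⟨_, ht.hasDerivAt⟩
  refine ⟨2 * (|D'| + 1), ?_⟩
  have h1 := hasDerivAt_iff_isLittleO_nhds_zero.1 hD'
  have h2 := h1.def (c := 1) one_pos
  have h3 : ∀ᶠ s in 𝓝 (0 : ℝ), ‖D (t + -s) - D t - (-s) • D'‖ ≤ 1 * ‖-s‖ :=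
    (continuous_neg.tendsto' (0 : ℝ) 0 (by simp)).eventually h2
  filter_upwards [h2, h3] with s hs hs'
  have key : ∀ s : ℝ, 0 < s → g (t + s) + g (t - s) - 2 * g t ≤ s * (D (t + s) - D (t - s)) := by
    intro s hs0
    have a1 : slope g t (t + s) ≤ derivWithin g (Iio (t + s)) (t + s) :=
      hg.slope_le_leftDeriv_of_mem_interior (mem_univ _) (hint _) (by linarith)
    have a2 : derivWithin g (Iio (t + s)) (t + s) ≤ D (t + s) :=
      hg.leftDeriv_le_rightDeriv_of_mem_interior (hint _)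
    have a3 : D (t - s) ≤ slope g (t - s) t :=
      hg.rightDeriv_le_slope_of_mem_interior (hint _) (mem_univ _) (by linarith)
    rw [slope_def_field] at a1 a3
    have e1 : t + s - t = s := by ring
    have e2 : t - (t - s) = s := by ring
    rw [e1] at a1
    rw [e2] at a3
    have a4 : (g (t + s) - g t) / s ≤ D (t + s) := a1.trans a2
    rw [div_le_iff₀ hs0] at a4
    rw [le_div_iff₀ hs0] at a3
    nlinarith
  rcases lt_trichotomy s 0 with hneg | h0 | hpos
  · have h4 := key (-s) (by linarith)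
    have e1 : t + -s = t - s := by ring
    have e2 : t - -s = t + s := by ring
    rw [e1, e2] at h4
    have h5 : |D (t - s) - D t + s * D'| ≤ |s| := by
      have := hs'
      simp only [smul_eq_mul, Real.norm_eq_abs, one_mul, abs_neg] at this
      rw [e1] at this
      convert this using 2
      ring
    have h6 : |D (t + s) - D t - s * D'| ≤ |s| := by
      have := hs
      simpa using this
    have hs1 : |s| = -s := abs_of_neg hneg
    rw [hs1] at h5 h6
    have h7 := (abs_le.1 h5)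
    have h8 := (abs_le.1 h6)
    have h9 : (D (t - s) - D (t + s)) ≤ 2 * (-s) + 2 * (-s) * |D'| := by
      have h10 : (-s) * D' ≤ (-s) * |D'| := mul_le_mul_of_nonneg_left (le_abs_self _) (by linarith)
      nlinarith [h7.2, h8.1]
    have h11 : (-s) * (D (t - s) - D (t + s)) ≤ (-s) * (2 * (-s) + 2 * (-s) * |D'|) :=
      mul_le_mul_of_nonneg_left h9 (by linarith)
    nlinarith
  · subst h0
    simp
    linarith
  · have h4 := key s hpos
    have h5 : |D (t - s) - D t + s * D'| ≤ |s| := by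
      have := hs'
      simp only [smul_eq_mul, Real.norm_eq_abs, one_mul, abs_neg] at this
      have e1 : t + -s = t - s := by ring
      rw [e1] at this
      convert this using 2
      ring
    have h6 : |D (t + s) - D t - s * D'| ≤ |s| := by
      have := hs
      simpa using this
    have hs1 : |s| = s := abs_of_pos hpos
    rw [hs1] at h5 h6
    have h7 := (abs_le.1 h5)
    have h8 := (abs_le.1 h6)
    have h9 : (D (t + s) - D (t - s)) ≤ 2 * s + 2 * s * |D'| := by
      have h10 : s * D' ≤ s * |D'| := mul_le_mul_of_nonneg_left (le_abs_self _) hpos.le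
      nlinarith [h7.1, h8.2]
    have h11 : s * (D (t + s) - D (t - s)) ≤ s * (2 * s + 2 * s * |D'|) :=
      mul_le_mul_of_nonneg_left h9 hpos.le
    nlinarith

end OneDim

section Reg

variable {E : Type*} [NormedAddCommGroup E] [NormedSpace ℝ E]

/-- Finite second symmetric difference of the norm at `z`. -/
def Reg (z : E) : Prop :=
  ∃ C : ℝ, ∀ᶠ w in 𝓝 (0 : E), ‖z + w‖ + ‖z - w‖ - 2 * ‖z‖ ≤ C * ‖w‖ ^ 2

/-- Finite second symmetric difference in one direction. -/
def RegDir (e z : E) : Prop :=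
  ∃ C : ℝ, ∀ᶠ s in 𝓝 (0 : ℝ), ‖z + s • e‖ + ‖z - s • e‖ - 2 * ‖z‖ ≤ C * s ^ 2

lemma Reg.smul {z : E} (hz : Reg z) {s : ℝ} (hs : s ≠ 0) : Reg (s • z) := by
  obtain ⟨C, hC⟩ := hz
  refine ⟨|s|⁻¹ * C, ?_⟩
  have hcont : Tendsto (fun w : E => s⁻¹ • w) (𝓝 0) (𝓝 0) := by
    have : Continuous fun w : E => s⁻¹ • w := by fun_prop
    simpa using this.tendsto (0 : E)
  filter_upwards [hcont.eventually hC] with w hw
  have e1 : s • z + w = s • (z + s⁻¹ • w) := by
    rw [smul_add, smul_smul, mul_inv_cancel₀ hs, one_smul]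
  have e2 : s • z - w = s • (z - s⁻¹ • w) := by
    rw [smul_sub, smul_smul, mul_inv_cancel₀ hs, one_smul]
  rw [e1, e2, norm_smul, norm_smul, norm_smul, Real.norm_eq_abs]
  rw [norm_smul, Real.norm_eq_abs, abs_inv] at hw
  have hs0 : 0 < |s| := abs_pos.2 hs
  have h1 : |s| * (‖z + s⁻¹ • w‖ + ‖z - s⁻¹ • w‖ - 2 * ‖z‖) ≤
      |s| * (C * (|s|⁻¹ * ‖w‖) ^ 2) := mul_le_mul_of_nonneg_left hw hs0.le
  have h2 : |s| * (C * (|s|⁻¹ * ‖w‖) ^ 2) = |s|⁻¹ * C * ‖w‖ ^ 2 := by
    field_simp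
  linarith

lemma regDir_iff_rat (e z : E) : RegDir e z ↔
    ∃ k : ℕ, ∀ q : ℚ, |(q : ℝ)| < 1 / ((k : ℝ) + 1) →
      ‖z + (q : ℝ) • e‖ + ‖z - (q : ℝ) • e‖ - 2 * ‖z‖ ≤ (k : ℝ) * (q : ℝ) ^ 2 := by
  constructor
  · rintro ⟨C, hC⟩
    obtain ⟨δ, hδ, hb⟩ := Metric.eventually_nhds_iff.1 hC
    obtain ⟨k₁, hk₁⟩ := exists_nat_ge C
    obtain ⟨k₂, hk₂⟩ := exists_nat_gt (1 / δ)
    refine ⟨max k₁ k₂, fun q hq => ?_⟩
    have hk : (k₂ : ℝ) ≤ ((max k₁ k₂ : ℕ) : ℝ) := by exact_mod_cast le_max_right _ _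
    have hk' : (k₁ : ℝ) ≤ ((max k₁ k₂ : ℕ) : ℝ) := by exact_mod_cast le_max_left _ _
    have h0 : 0 < 1 / δ := by positivity
    have hk2pos : (0 : ℝ) < (k₂ : ℝ) := h0.trans hk₂
    have h1 : 1 / (((max k₁ k₂ : ℕ) : ℝ) + 1) < δ := by
      rw [div_lt_iff₀ (by positivity)]
      rw [div_lt_iff₀ hδ] at hk₂
      nlinarith
    have h2 := hb (y := (q : ℝ)) (by
      rw [Real.dist_eq, sub_zero]
      exact hq.trans h1)
    refine h2.trans ?_
    exact mul_le_mul_of_nonneg_right (hk₁.trans hk') (by positivity)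
  · rintro ⟨k, hk⟩
    refine ⟨k, ?_⟩
    have hk0 : (0 : ℝ) < 1 / ((k : ℝ) + 1) := by positivity
    refine Metric.eventually_nhds_iff.2 ⟨_, hk0, fun {s} hs => ?_⟩
    rw [Real.dist_eq, sub_zero] at hs
    by_contra hcon
    push Not at hcon
    let F : ℝ → ℝ := fun s => ‖z + s • e‖ + ‖z - s • e‖ - 2 * ‖z‖ - (k : ℝ) * s ^ 2
    have hF : Continuous F := by fun_prop
    have hFs : 0 < F s := by
      simp only [F]
      linarith
    have hnb : ∀ᶠ t in 𝓝 s, 0 < F t ∧ |t| < 1 / ((k : ℝ) + 1) :=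
      (hF.continuousAt.eventually (lt_mem_nhds hFs)).and
        (continuous_abs.continuousAt.eventually (gt_mem_nhds hs))
    obtain ⟨ε, hε, hball⟩ := Metric.eventually_nhds_iff.1 hnb
    obtain ⟨q, hq1, hq2⟩ := exists_rat_btwn (show s < s + ε by linarith)
    have h3 := @hball (q : ℝ) (by
      rw [Real.dist_eq, abs_lt]
      constructor <;> linarith)
    have h4 := hk q h3.2
    have h5 := h3.1
    simp only [F] at h5
    linarith

lemma measurableSet_regDir [MeasurableSpace E] [BorelSpace E] (e : E) :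
    MeasurableSet {z : E | RegDir e z} := by
  have h : {z : E | RegDir e z} = ⋃ k : ℕ, ⋂ q : ℚ, {z : E | |(q : ℝ)| < 1 / ((k : ℝ) + 1) →
      ‖z + (q : ℝ) • e‖ + ‖z - (q : ℝ) • e‖ - 2 * ‖z‖ ≤ (k : ℝ) * (q : ℝ) ^ 2} := by
    ext z
    simp only [mem_ofPred_eq, mem_iUnion, mem_iInter]
    exact regDir_iff_rat e z
  rw [h]
  refine MeasurableSet.iUnion fun k => MeasurableSet.iInter fun q => ?_
  by_cases hq : |(q : ℝ)| < 1 / ((k : ℝ) + 1)
  · simp only [hq, forall_const]
    exact (isClosed_le (by fun_prop) (by fun_prop)).measurableSet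
  · have e : {z : E | |(q : ℝ)| < 1 / ((k : ℝ) + 1) →
        ‖z + (q : ℝ) • e‖ + ‖z - (q : ℝ) • e‖ - 2 * ‖z‖ ≤ (k : ℝ) * (q : ℝ) ^ 2} = univ := by
      ext z
      simp only [mem_ofPred_eq, mem_univ, iff_true]
      exact fun h => absurd h hq
    rw [e]
    exact MeasurableSet.univ

lemma regDir_ae_line (e p : E) : ∀ᵐ t : ℝ, p + (ContinuousLinearMap.smulRight
    (1 : ℝ →L[ℝ] ℝ) e).toLinearMap t ∈ {z : E | RegDir e z} := by
  have hconv : ConvexOn ℝ univ (fun t : ℝ => ‖p + t • e‖) := by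
    have h1 : ConvexOn ℝ univ (fun x : E => ‖x‖) := convexOn_univ_norm
    refine ⟨convex_univ, fun a _ b _ α β hα hβ hαβ => ?_⟩
    have e1 : p + (α • a + β • b) • e = α • (p + a • e) + β • (p + b • e) := by
      have hp : p = (α + β) • p := by rw [hαβ, one_smul]
      conv_lhs => rw [hp]
      simp only [add_smul, smul_add, smul_smul]
      simp only [smul_eq_mul]
      abel
    simp only [smul_eq_mul] at e1 ⊢
    rw [show p + (α * a + β * b) • e = α • (p + a • e) + β • (p + b • e) by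
      simpa using e1]
    refine (norm_add_le _ _).trans ?_
    rw [norm_smul, norm_smul, Real.norm_of_nonneg hα, Real.norm_of_nonneg hβ]
  filter_upwards [ae_second_diff hconv] with t ht
  obtain ⟨C, hC⟩ := ht
  refine ⟨C, ?_⟩
  filter_upwards [hC] with s hs
  have e0 : p + (ContinuousLinearMap.smulRight (1 : ℝ →L[ℝ] ℝ) e).toLinearMap t = p + t • e := by
    simp
  rw [e0]
  have e1 : p + t • e + s • e = p + (t + s) • e := by
    rw [add_smul, add_assoc]
  have e2 : p + t • e - s • e = p + (t - s) • e := by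
    rw [sub_smul, add_sub_assoc]
  rw [e1, e2]
  exact hs

/-- In a fixed direction the second symmetric difference is finite almost everywhere. -/
lemma ae_regDir [FiniteDimensional ℝ E] [MeasurableSpace E] [BorelSpace E] (μ : Measure E)
    [μ.IsAddHaarMeasure] (e : E) : ∀ᵐ z ∂μ, RegDir e z := by
  exact ae_mem_of_ae_add_linearMap_mem
    (ContinuousLinearMap.smulRight (1 : ℝ →L[ℝ] ℝ) e).toLinearMap volume μ
    (measurableSet_regDir e) (fun p => regDir_ae_line e p)

lemma norm_avg_le {ι : Type*} [Fintype ι] (m : ℝ) (hm : 0 < m) (hcard : (Fintype.card ι : ℝ) = m)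
    (z : E) (a : ι → E) :
    ‖z + ∑ i, a i‖ ≤ m⁻¹ * ∑ i, ‖z + m • a i‖ := by
  have e : z + ∑ i, a i = ∑ i, m⁻¹ • (z + m • a i) := by
    simp only [smul_add, smul_smul, inv_mul_cancel₀ hm.ne', one_smul]
    rw [Finset.sum_add_distrib]
    simp only [Finset.sum_const, Finset.card_univ]
    rw [← Nat.cast_smul_eq_nsmul ℝ, hcard, smul_smul, mul_inv_cancel₀ hm.ne', one_smul]
  rw [e]
  refine (norm_sum_le _ _).trans ?_
  rw [Finset.mul_sum]
  refine Finset.sum_le_sum fun i _ => ?_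
  rw [norm_smul, norm_inv, Real.norm_of_nonneg hm.le]

/-- Finite second differences along a basis give a finite second difference. -/
lemma reg_of_regDir [FiniteDimensional ℝ E] [Nontrivial E] {z : E}
    (h : ∀ i, RegDir (Module.finBasis ℝ E i) z) : Reg z := by
  classical
  let b := Module.finBasis ℝ E
  let n : ℕ := Module.finrank ℝ E
  have hn : 0 < n := Module.finrank_pos
  let m : ℝ := (n : ℝ)
  have hm : 0 < m := Nat.cast_pos.2 hn
  choose C hC using h
  let c : Fin n → E →L[ℝ] ℝ := fun i => LinearMap.toContinuousLinearMap (b.coord i)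
  have hc : ∀ i w, c i w = b.repr w i := fun i w => rfl
  let K : ℝ := ∑ i, ‖c i‖
  have hK : 0 ≤ K := Finset.sum_nonneg fun i _ => norm_nonneg _
  have hcK : ∀ i w, |c i w| ≤ K * ‖w‖ := by
    intro i w
    have h1 := (c i).le_opNorm w
    have h2 : ‖c i‖ ≤ K := Finset.single_le_sum (f := fun i => ‖c i‖)
      (fun i _ => norm_nonneg _) (Finset.mem_univ i)
    rw [Real.norm_eq_abs] at h1
    exact h1.trans (mul_le_mul_of_nonneg_right h2 (norm_nonneg _))
  let A : ℝ := ∑ i, |C i|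
  have hA : 0 ≤ A := Finset.sum_nonneg fun i _ => abs_nonneg _
  refine ⟨m * K ^ 2 * A, ?_⟩
  have hev : ∀ i, ∀ᶠ w in 𝓝 (0 : E), ‖z + (m * c i w) • b i‖ + ‖z - (m * c i w) • b i‖ - 2 * ‖z‖ ≤
      C i * (m * c i w) ^ 2 := by
    intro i
    have hcont : Tendsto (fun w : E => m * c i w) (𝓝 0) (𝓝 0) := by
      have : Continuous fun w : E => m * c i w := by fun_prop
      simpa using this.tendsto (0 : E)
    exact hcont.eventually (hC i)
  filter_upwards [eventually_all.2 hev] with w hw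
  have hcard : (Fintype.card (Fin n) : ℝ) = m := by simp [m]
  have hsum : w = ∑ i, c i w • b i := by
    have := b.sum_repr w
    simp [hc, this]
  have h1 : ‖z + w‖ ≤ m⁻¹ * ∑ i, ‖z + (m * c i w) • b i‖ := by
    have := norm_avg_le m hm hcard z (fun i => c i w • b i)
    rw [← hsum] at this
    simpa [smul_smul] using this
  have h2 : ‖z - w‖ ≤ m⁻¹ * ∑ i, ‖z - (m * c i w) • b i‖ := by
    have := norm_avg_le m hm hcard z (fun i => (-c i w) • b i)
    have e : ∑ i, (-c i w) • b i = -w := by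
      conv_rhs => rw [hsum]
      rw [← Finset.sum_neg_distrib]
      simp
    rw [e] at this
    have e2 : ∀ i, z + m • (-c i w) • b i = z - (m * c i w) • b i := by
      intro i
      rw [smul_smul, mul_neg, neg_smul, sub_eq_add_neg]
    simp only [e2] at this
    rwa [sub_eq_add_neg]
  have h3 : ∑ i : Fin n, (‖z + (m * c i w) • b i‖ + ‖z - (m * c i w) • b i‖ - 2 * ‖z‖) ≤
      ∑ i : Fin n, |C i| * (m * (K * ‖w‖)) ^ 2 := by
    refine Finset.sum_le_sum fun i _ => (hw i).trans ?_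
    have h4 : (m * c i w) ^ 2 ≤ (m * (K * ‖w‖)) ^ 2 := by
      rw [mul_pow, mul_pow]
      refine mul_le_mul_of_nonneg_left ?_ (by positivity)
      rw [← sq_abs (c i w)]
      exact pow_le_pow_left₀ (abs_nonneg _) (hcK i w) 2
    calc C i * (m * c i w) ^ 2 ≤ |C i| * (m * c i w) ^ 2 :=
          mul_le_mul_of_nonneg_right (le_abs_self _) (by positivity)
      _ ≤ |C i| * (m * (K * ‖w‖)) ^ 2 := mul_le_mul_of_nonneg_left h4 (abs_nonneg _)
  have h5 : ∑ i : Fin n, (‖z + (m * c i w) • b i‖ + ‖z - (m * c i w) • b i‖ - 2 * ‖z‖) =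
      ∑ i, ‖z + (m * c i w) • b i‖ + ∑ i, ‖z - (m * c i w) • b i‖ - m * (2 * ‖z‖) := by
    rw [Finset.sum_sub_distrib, Finset.sum_add_distrib]
    simp [m]
  have h6 : ∑ i : Fin n, |C i| * (m * (K * ‖w‖)) ^ 2 = A * (m * (K * ‖w‖)) ^ 2 := by
    rw [← Finset.sum_mul]
  rw [h5, h6] at h3
  have h7 : m⁻¹ * (∑ i, ‖z + (m * c i w) • b i‖ + ∑ i, ‖z - (m * c i w) • b i‖ - m * (2 * ‖z‖)) ≤
      m⁻¹ * (A * (m * (K * ‖w‖)) ^ 2) :=
    mul_le_mul_of_nonneg_left h3 (inv_pos.2 hm).le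
  have h8 : m⁻¹ * (∑ i, ‖z + (m * c i w) • b i‖ + ∑ i, ‖z - (m * c i w) • b i‖ - m * (2 * ‖z‖)) =
      m⁻¹ * ∑ i, ‖z + (m * c i w) • b i‖ + m⁻¹ * ∑ i, ‖z - (m * c i w) • b i‖ - 2 * ‖z‖ := by
    field_simp
  have h9 : m⁻¹ * (A * (m * (K * ‖w‖)) ^ 2) = m * K ^ 2 * A * ‖w‖ ^ 2 := by
    field_simp
  rw [h8, h9] at h7
  linarith

/-- **Almost every point has finite second symmetric difference.** -/
theorem ae_reg [FiniteDimensional ℝ E] [Nontrivial E] [MeasurableSpace E] [BorelSpace E]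
    (μ : Measure E) [μ.IsAddHaarMeasure] : ∀ᵐ z ∂μ, Reg z := by
  have h : ∀ i, ∀ᵐ z ∂μ, RegDir (Module.finBasis ℝ E i) z := fun i => ae_regDir μ _
  filter_upwards [ae_all_iff.2 h] with z hz
  exact reg_of_regDir hz

end Reg

end Vale.Agent.Lib.P084.Far
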