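import Mathlib
import Vale.Agent.Lib.P084.Far.Reg
import Vale.Agent.Lib.P084.Tingley

/-! Good chords: for every point of the sphere, almost every chord from it has ends at which both
norms have finite second symmetric difference. -/

namespace Vale.Agent.Lib.P084.Far

open Set Metric Filter Topology MeasureTheory
open scoped NNReal ENNReal

section Expansive

variable {E : Type*} [NormedAddCommGroup E] [NormedSpace ℝ E]

/-- The map `w ↦ ‖w‖ e₀ - w`: it sends `r u` to `r (e₀ - u)`. -/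
noncomputable def Xi (e₀ w : E) : E := ‖w‖ • e₀ - w

lemma fle (ψ : StrongDual ℝ E) (hψ : ‖ψ‖ ≤ 1) (v : E) : ψ v ≤ ‖v‖ :=
  (le_abs_self _).trans (functional_le ψ hψ)

lemma xi_expansive {e₀ u₁ : E} (he : ‖e₀‖ = 1) (hu : ‖u₁‖ = 1) (hmid : ‖e₀ + u₁‖ < 2) :
    ∃ ρ c : ℝ, 0 < ρ ∧ 0 < c ∧ ∀ a ∈ ball u₁ ρ, ∀ b ∈ ball u₁ ρ,
      c * ‖a - b‖ ≤ ‖Xi e₀ a - Xi e₀ b‖ := by
  obtain ⟨d, hd⟩ : ∃ d, d = 2 - ‖e₀ + u₁‖ := ⟨_, rfl⟩
  have hd0 : 0 < d := by linarith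
  have hψ : ∀ w ∈ ball u₁ (d / 4), ∀ ψ : StrongDual ℝ E, ‖ψ‖ ≤ 1 → ψ w = ‖w‖ →
      ψ e₀ ≤ 1 - d / 2 := by
    intro w hw ψ hψ hψw
    rw [mem_ball, dist_eq_norm] at hw
    have h1 : ψ (e₀ + w) ≤ ‖e₀ + w‖ := fle ψ hψ _
    have h2 : ‖e₀ + w‖ ≤ ‖e₀ + u₁‖ + ‖w - u₁‖ := by
      have : e₀ + w = (e₀ + u₁) + (w - u₁) := by abel
      rw [this]
      exact norm_add_le _ _
    have h3 : 1 - ‖w - u₁‖ ≤ ‖w‖ := by
      have := norm_sub_norm_le u₁ w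
      rw [hu, norm_sub_rev] at this
      linarith
    rw [map_add, hψw] at h1
    linarith
  refine ⟨d / 4, (1 + 2 / d)⁻¹, by positivity, by positivity, fun a ha b hb => ?_⟩
  obtain ⟨ψ₁, hψ₁, hψ₁a⟩ := exists_dual_vector'' ℝ a
  obtain ⟨ψ₂, hψ₂, hψ₂b⟩ := exists_dual_vector'' ℝ b
  have hψ₁a' : ψ₁ a = ‖a‖ := by simpa using hψ₁a
  have hψ₂b' : ψ₂ b = ‖b‖ := by simpa using hψ₂b
  have b1 := hψ a ha ψ₁ hψ₁ hψ₁a'
  have b2 := hψ b hb ψ₂ hψ₂ hψ₂b'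
  obtain ⟨lam, hlam⟩ : ∃ lam, lam = ‖a‖ - ‖b‖ := ⟨_, rfl⟩
  obtain ⟨y, hy⟩ : ∃ y, y = Xi e₀ a - Xi e₀ b := ⟨_, rfl⟩
  have hye : y = lam • e₀ - (a - b) := by
    rw [hy, hlam, Xi, Xi, sub_smul]
    abel
  have hv : a - b = lam • e₀ - y := by
    rw [hye]
    abel
  have c1 : lam ≤ ψ₁ (a - b) := by
    rw [map_sub, hψ₁a', hlam]
    have := fle ψ₁ hψ₁ b
    linarith
  have c2 : ψ₂ (a - b) ≤ lam := by
    rw [map_sub, hψ₂b', hlam]
    have := fle ψ₂ hψ₂ a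
    linarith
  have hyn : 0 ≤ ‖y‖ := norm_nonneg _
  have c3 : ψ₁ (a - b) = lam * ψ₁ e₀ - ψ₁ y := by
    rw [hv, map_sub, map_smul, smul_eq_mul]
  have c4 : ψ₂ (a - b) = lam * ψ₂ e₀ - ψ₂ y := by
    rw [hv, map_sub, map_smul, smul_eq_mul]
  have c5 : |ψ₁ y| ≤ ‖y‖ := functional_le ψ₁ hψ₁
  have c6 : |ψ₂ y| ≤ ‖y‖ := functional_le ψ₂ hψ₂
  have hlamb : |lam| * (d / 2) ≤ ‖y‖ := by
    rcases le_or_gt 0 lam with hl | hl
    · rw [abs_of_nonneg hl]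
      have e1 : lam * (1 - ψ₁ e₀) ≤ ‖y‖ := by
        have := (abs_le.1 c5).1
        nlinarith
      have e2 : lam * (d / 2) ≤ lam * (1 - ψ₁ e₀) :=
        mul_le_mul_of_nonneg_left (by linarith) hl
      linarith
    · rw [abs_of_neg hl]
      have e1 : (-lam) * (1 - ψ₂ e₀) ≤ ‖y‖ := by
        have := (abs_le.1 c6).2
        nlinarith
      have e2 : (-lam) * (d / 2) ≤ (-lam) * (1 - ψ₂ e₀) :=
        mul_le_mul_of_nonneg_left (by linarith) (by linarith)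
      linarith
  have hlam2 : |lam| ≤ 2 / d * ‖y‖ := by
    rw [div_mul_eq_mul_div, le_div_iff₀ hd0]
    linarith
  have hab : ‖a - b‖ ≤ (1 + 2 / d) * ‖y‖ := by
    rw [hv]
    refine (norm_sub_le _ _).trans ?_
    rw [norm_smul, he, mul_one, Real.norm_eq_abs]
    linarith
  rw [← hy]
  have hpos : 0 < 1 + 2 / d := by positivity
  rw [inv_mul_le_iff₀ hpos]
  exact hab

end Expansive

section Null

variable {E F : Type*} [NormedAddCommGroup E] [NormedAddCommGroup F]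
  [MeasurableSpace E] [BorelSpace E] [MeasurableSpace F] [BorelSpace F]

/-- The preimage of a null set under an expanding map is null. -/
lemma null_preimage {V : Set E} {ξ : E → F} {c : ℝ} (hc : 0 < c)
    (h : ∀ a ∈ V, ∀ b ∈ V, c * ‖a - b‖ ≤ ‖ξ a - ξ b‖) {A : Set F} {d : ℝ} (hd : 0 ≤ d)
    (hA : μH[d] A = 0) : μH[d] (V ∩ ξ ⁻¹' A) = 0 := by
  let f : V → F := fun a => ξ a
  have hf : AntilipschitzWith (Real.toNNReal c⁻¹) f := by
    refine AntilipschitzWith.of_le_mul_dist fun a b => ?_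
    change dist (a : E) b ≤ _ * dist (f a) (f b)
    rw [dist_eq_norm, dist_eq_norm, Real.coe_toNNReal _ (inv_pos.2 hc).le]
    have h1 := h a a.2 b b.2
    rw [inv_mul_eq_div, le_div_iff₀ hc]
    linarith
  have h1 := hf.hausdorffMeasure_preimage_le hd A
  rw [hA, mul_zero] at h1
  have h2 : μH[d] (f ⁻¹' A) = 0 := nonpos_iff_eq_zero.1 h1
  have h3 : V ∩ ξ ⁻¹' A = ((↑) : V → E) '' (f ⁻¹' A) := by
    ext x
    constructor
    · rintro ⟨hx, hxA⟩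
      exact ⟨⟨x, hx⟩, hxA, rfl⟩
    · rintro ⟨⟨y, hy⟩, hyA, rfl⟩
      exact ⟨hy, hyA⟩
  rw [h3, (isometry_subtype_coe).hausdorffMeasure_image (Or.inl hd), h2]

end Null

section Radial

variable {X Y : Type*} [NormedAddCommGroup X] [NormedSpace ℝ X]
  [NormedAddCommGroup Y] [NormedSpace ℝ Y] {g : X → Y} {h : Y → X}

lemma rnorm (H : SphereIso g h) (x : X) : ‖radial g x‖ = ‖x‖ := by
  by_cases hx : x = 0
  · simp [hx, radial_zero]
  · simp only [radial]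
    rw [norm_smul, H.map_g _ (unit_of_ne hx), norm_norm, mul_one]

lemma rsymm (H : SphereIso g h) (x : X) : radial h (radial g x) = x := by
  by_cases hx : x = 0
  · simp [hx, radial_zero]
  · have hn : ‖x‖ ≠ 0 := norm_ne_zero_iff.2 hx
    have e : radial g x = ‖x‖ • g (‖x‖⁻¹ • x) := rfl
    rw [e, radial_smul h (norm_nonneg _), radial_of_unit h (H.map_g _ (unit_of_ne hx)),
      H.left _ (unit_of_ne hx), smul_smul, mul_inv_cancel₀ hn, one_smul]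

lemma rlip (H : SphereIso g h) (a b : X) : ‖radial g a - radial g b‖ ≤ 3 * ‖a - b‖ := by
  by_cases ha : a = 0
  · subst ha
    rw [radial_zero, zero_sub, zero_sub, norm_neg, norm_neg, rnorm H]
    have := norm_nonneg b
    linarith
  by_cases hb : b = 0
  · subst hb
    rw [radial_zero, sub_zero, sub_zero, rnorm H]
    have := norm_nonneg a
    linarith
  have hr : 0 < ‖a‖ := norm_pos_iff.2 ha
  have hs : 0 < ‖b‖ := norm_pos_iff.2 hb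
  have e1 : radial g a - radial g b =
      ‖a‖ • (g (‖a‖⁻¹ • a) - g (‖b‖⁻¹ • b)) + (‖a‖ - ‖b‖) • g (‖b‖⁻¹ • b) := by
    simp only [radial, smul_sub, sub_smul]
    abel
  have e2 : ‖a‖ * ‖‖a‖⁻¹ • a - ‖b‖⁻¹ • b‖ ≤ ‖a - b‖ + |‖a‖ - ‖b‖| := by
    have e3 : ‖a‖ * ‖‖a‖⁻¹ • a - ‖b‖⁻¹ • b‖ = ‖a - (‖a‖ / ‖b‖) • b‖ := by
      have e4 : a - (‖a‖ / ‖b‖) • b = ‖a‖ • (‖a‖⁻¹ • a - ‖b‖⁻¹ • b) := by
        rw [smul_sub, smul_smul, smul_smul, mul_inv_cancel₀ hr.ne', one_smul, div_eq_mul_inv]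
      rw [e4, norm_smul, norm_norm]
    rw [e3]
    have e5 : a - (‖a‖ / ‖b‖) • b = (a - b) + (1 - ‖a‖ / ‖b‖) • b := by
      rw [sub_smul, one_smul]
      abel
    rw [e5]
    refine (norm_add_le _ _).trans ?_
    rw [norm_smul, Real.norm_eq_abs]
    have e6 : |1 - ‖a‖ / ‖b‖| * ‖b‖ = |‖a‖ - ‖b‖| := by
      have : |1 - ‖a‖ / ‖b‖| * ‖b‖ = |(1 - ‖a‖ / ‖b‖) * ‖b‖| := by
        rw [abs_mul, abs_of_pos hs]
      rw [this]
      have e7 : (1 - ‖a‖ / ‖b‖) * ‖b‖ = ‖b‖ - ‖a‖ := by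
        field_simp
      rw [e7, abs_sub_comm]
    rw [e6]
  have e8 : |‖a‖ - ‖b‖| ≤ ‖a - b‖ := abs_norm_sub_norm_le a b
  rw [e1]
  refine (norm_add_le _ _).trans ?_
  rw [norm_smul, norm_smul, norm_norm, H.iso _ _ (unit_of_ne ha) (unit_of_ne hb),
    H.map_g _ (unit_of_ne hb), mul_one, Real.norm_eq_abs]
  linarith

lemma finrank_le [FiniteDimensional ℝ X] [FiniteDimensional ℝ Y] (H : SphereIso g h) :
    Module.finrank ℝ Y ≤ Module.finrank ℝ X := by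
  have hL : LipschitzWith 3 (radial g) :=
    LipschitzWith.of_dist_le_mul fun a b => by
      rw [dist_eq_norm, dist_eq_norm]
      exact_mod_cast rlip H a b
  have hs : Function.Surjective (radial g) := fun y => ⟨radial h y, rsymm H.symm y⟩
  have h1 := hL.dimH_range_le
  rw [hs.range_eq, Real.dimH_univ_eq_finrank, Real.dimH_univ_eq_finrank] at h1
  exact_mod_cast h1

/-- A sphere isometry forces equal dimensions. -/
lemma finrank_eq [FiniteDimensional ℝ X] [FiniteDimensional ℝ Y] (H : SphereIso g h) :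
    Module.finrank ℝ X = Module.finrank ℝ Y :=
  le_antisymm (finrank_le H.symm) (finrank_le H)

end Radial

section Good

variable {X Y : Type*} [NormedAddCommGroup X] [NormedSpace ℝ X]
  [NormedAddCommGroup Y] [NormedSpace ℝ Y] {g : X → Y} {h : Y → X}
  [FiniteDimensional ℝ X] [FiniteDimensional ℝ Y] [Nontrivial X]

omit [FiniteDimensional ℝ Y] in
lemma norm_add_image (H : SphereIso g h) {a b : X} (ha : ‖a‖ = 1) (hb : ‖b‖ = 1) :
    ‖g a + g b‖ = ‖a + b‖ := by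
  have h1 := H.iso a (-b) ha (by rwa [norm_neg])
  rwa [sphere_odd H hb, sub_neg_eq_add, sub_neg_eq_add] at h1

/-- **Good chords are dense.** -/
theorem exists_good (H : SphereIso g h) {x₀ u₁ : X} (hx₀ : ‖x₀‖ = 1) (hu₁ : ‖u₁‖ = 1)
    (hmid : ‖x₀ + u₁‖ < 2) {ε : ℝ} (hε : 0 < ε) :
    ∃ u : X, ‖u‖ = 1 ∧ ‖u - u₁‖ < ε ∧ ‖x₀ + u‖ < 2 ∧ Reg (x₀ - u) ∧ Reg (g x₀ - g u) := by
  borelize X Y
  have hdim := finrank_eq H
  have hy₀ : ‖g x₀‖ = 1 := H.map_g _ hx₀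
  have hu₁' : ‖g u₁‖ = 1 := H.map_g _ hu₁
  have : Nontrivial Y := ⟨⟨g x₀, 0, fun h0 => by
    rw [h0, norm_zero] at hy₀
    norm_num at hy₀⟩⟩
  have hmid' : ‖g x₀ + g u₁‖ < 2 := by
    rw [norm_add_image H hx₀ hu₁]
    exact hmid
  obtain ⟨ρ₁, c₁, hρ₁, hc₁, hX⟩ := xi_expansive hx₀ hu₁ hmid
  obtain ⟨ρ₂, c₂, hρ₂, hc₂, hY⟩ := xi_expansive hy₀ hu₁' hmid'
  obtain ⟨d, hd⟩ : ∃ d, d = 2 - ‖x₀ + u₁‖ := ⟨_, rfl⟩
  have hd0 : 0 < d := by linarith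
  obtain ⟨ρ, hρ⟩ : ∃ ρ, ρ = min (min ρ₁ (ρ₂ / 3)) (min (ε / 4) (min (d / 4) (1 / 2))) := ⟨_, rfl⟩
  have hρpos : 0 < ρ := by
    rw [hρ]
    positivity
  have r1 : ρ ≤ ρ₁ := hρ ▸ (min_le_left _ _).trans (min_le_left _ _)
  have r2 : ρ ≤ ρ₂ / 3 := hρ ▸ (min_le_left _ _).trans (min_le_right _ _)
  have r3 : ρ ≤ ε / 4 := hρ ▸ (min_le_right _ _).trans (min_le_left _ _)
  have r4 : ρ ≤ d / 4 := hρ ▸ (min_le_right _ _).trans ((min_le_right _ _).trans (min_le_left _ _))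
  have r5 : ρ ≤ 1 / 2 := hρ ▸ (min_le_right _ _).trans ((min_le_right _ _).trans (min_le_right _ _))
  obtain ⟨V, hV⟩ : ∃ V, V = ball u₁ ρ := ⟨_, rfl⟩
  have hVX : ∀ a ∈ V, a ∈ ball u₁ ρ₁ := fun a ha => by
    rw [hV] at ha
    exact ball_subset_ball r1 ha
  have hTu : radial g u₁ = g u₁ := radial_of_unit g hu₁
  have hVY : ∀ a ∈ V, radial g a ∈ ball (g u₁) ρ₂ := by
    intro a ha
    rw [hV, mem_ball, dist_eq_norm] at ha
    rw [mem_ball, dist_eq_norm, ← hTu]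
    have := rlip H a u₁
    linarith
  have hexp₂ : ∀ a ∈ V, ∀ b ∈ V, (c₂ / 3) * ‖a - b‖ ≤
      ‖Xi (g x₀) (radial g a) - Xi (g x₀) (radial g b)‖ := by
    intro a ha b hb
    have h1 := hY _ (hVY a ha) _ (hVY b hb)
    have h2 := rlip H.symm (radial g a) (radial g b)
    rw [rsymm H, rsymm H] at h2
    have h3 : c₂ * ‖a - b‖ ≤ c₂ * (3 * ‖radial g a - radial g b‖) :=
      mul_le_mul_of_nonneg_left h2 hc₂.le
    linarith
  have hexp₁ : ∀ a ∈ V, ∀ b ∈ V, c₁ * ‖a - b‖ ≤ ‖Xi x₀ a - Xi x₀ b‖ :=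
    fun a ha b hb => hX a (hVX a ha) b (hVX b hb)
  -- null sets
  have hn0 : (0 : ℝ) ≤ (Module.finrank ℝ X : ℝ) := Nat.cast_nonneg _
  have nX : μH[(Module.finrank ℝ X : ℝ)] {z : X | ¬ Reg z} = 0 := by
    have := ae_reg (E := X) (μH[(Module.finrank ℝ X : ℝ)])
    exact ae_iff.1 this
  have nY : μH[(Module.finrank ℝ X : ℝ)] {z : Y | ¬ Reg z} = 0 := by
    rw [hdim]
    have := ae_reg (E := Y) (μH[(Module.finrank ℝ Y : ℝ)])
    exact ae_iff.1 this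
  have b1 := null_preimage hc₁ hexp₁ hn0 nX
  have b2 := null_preimage (ξ := fun a => Xi (g x₀) (radial g a)) (by positivity : 0 < c₂ / 3)
    hexp₂ hn0 nY
  have hpos : 0 < μH[(Module.finrank ℝ X : ℝ)] V := by
    rw [hV]
    exact isOpen_ball.measure_pos _ ⟨u₁, mem_ball_self hρpos⟩
  obtain ⟨w, hwV, hw1, hw2⟩ : ∃ w ∈ V, Reg (Xi x₀ w) ∧ Reg (Xi (g x₀) (radial g w)) := by
    by_contra hcon
    push Not at hcon
    have hsub : V ⊆ (V ∩ Xi x₀ ⁻¹' {z : X | ¬ Reg z}) ∪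
        (V ∩ (fun a => Xi (g x₀) (radial g a)) ⁻¹' {z : Y | ¬ Reg z}) := by
      intro w hw
      by_cases hr : Reg (Xi x₀ w)
      · right
        exact ⟨hw, hcon w hw hr⟩
      · left
        exact ⟨hw, hr⟩
    have h3 := measure_mono (μ := μH[(Module.finrank ℝ X : ℝ)]) hsub
    have h4 := measure_union_le (μ := μH[(Module.finrank ℝ X : ℝ)])
      (V ∩ Xi x₀ ⁻¹' {z : X | ¬ Reg z})
      (V ∩ (fun a => Xi (g x₀) (radial g a)) ⁻¹' {z : Y | ¬ Reg z})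
    rw [b1, b2, add_zero] at h4
    exact absurd (h3.trans h4) (not_le.2 hpos)
  have hwb : ‖w - u₁‖ < ρ := by
    rw [hV, mem_ball, dist_eq_norm] at hwV
    exact hwV
  have hwn : 1 / 2 ≤ ‖w‖ := by
    have := norm_sub_norm_le u₁ w
    rw [hu₁, norm_sub_rev] at this
    linarith
  have hwpos : 0 < ‖w‖ := by linarith
  have hw0 : w ≠ 0 := norm_pos_iff.1 hwpos
  obtain ⟨u, hu⟩ : ∃ u, u = ‖w‖⁻¹ • w := ⟨_, rfl⟩
  have hun : ‖u‖ = 1 := by
    rw [hu]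
    exact unit_of_ne hw0
  have huw : ‖u - w‖ ≤ ‖w - u₁‖ := by
    have e : u - w = (‖w‖⁻¹ - 1) • w := by
      rw [hu, sub_smul, one_smul]
    rw [e, norm_smul, Real.norm_eq_abs]
    have e2 : |‖w‖⁻¹ - 1| * ‖w‖ = |1 - ‖w‖| := by
      have : |‖w‖⁻¹ - 1| * ‖w‖ = |(‖w‖⁻¹ - 1) * ‖w‖| := by
        rw [abs_mul, abs_of_pos hwpos]
      rw [this, sub_mul, inv_mul_cancel₀ hwpos.ne', one_mul]
    rw [e2]
    have := abs_norm_sub_norm_le u₁ w
    rw [hu₁, norm_sub_rev] at this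
    exact this
  have huu : ‖u - u₁‖ ≤ 2 * ρ := by
    have e : u - u₁ = (u - w) + (w - u₁) := by abel
    rw [e]
    refine (norm_add_le _ _).trans ?_
    linarith
  refine ⟨u, hun, by linarith, ?_, ?_, ?_⟩
  · have e : x₀ + u = (x₀ + u₁) + (u - u₁) := by abel
    rw [e]
    refine (norm_add_le _ _).trans_lt ?_
    linarith
  · have e : x₀ - u = ‖w‖⁻¹ • Xi x₀ w := by
      rw [Xi, smul_sub, smul_smul, inv_mul_cancel₀ hwpos.ne', one_smul, hu]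
    rw [e]
    exact hw1.smul (inv_pos.2 hwpos).ne'
  · have e : g x₀ - g u = ‖w‖⁻¹ • Xi (g x₀) (radial g w) := by
      have e1 : radial g w = ‖w‖ • g u := by
        rw [hu]
        rfl
      rw [Xi, rnorm H, e1, smul_sub, smul_smul, smul_smul, inv_mul_cancel₀ hwpos.ne', one_smul,
        one_smul]
    rw [e]
    exact hw2.smul (inv_pos.2 hwpos).ne'

end Good

end Vale.Agent.Lib.P084.Far
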