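import Mathlib
import Vale.Agent.Lib.P084.Far.Null

/-! The cone of chords from a point of the sphere; the gradients on a dense set of chords span. -/

namespace Vale.Agent.Lib.P084.Far

open Set Metric Filter Topology

section Line

variable {E : Type*} [NormedAddCommGroup E] [NormedSpace ℝ E]

lemma line_lt' {p d : E} {a b t : ℝ} (h1 : ‖p + a • d‖ < 1) (h2 : ‖p + b • d‖ ≤ 1) (hat : a ≤ t)
    (htb : t < b) : ‖p + t • d‖ < 1 := by
  have hab : 0 < b - a := by linarith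
  obtain ⟨l, hl⟩ : ∃ l, l = (b - t) / (b - a) := ⟨_, rfl⟩
  have hl0 : 0 < l := by
    rw [hl]
    exact div_pos (by linarith) hab
  have hl1 : l ≤ 1 := by
    rw [hl, div_le_one hab]
    linarith
  have e : p + t • d = l • (p + a • d) + (1 - l) • (p + b • d) := by
    have e1 : t = l * a + (1 - l) * b := by
      rw [hl]
      field_simp
      ring
    conv_lhs => rw [e1]
    simp only [smul_add, add_smul, smul_smul, sub_smul, one_smul]
    abel
  rw [e]
  refine (norm_add_le _ _).trans_lt ?_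
  rw [norm_smul, norm_smul, Real.norm_of_nonneg hl0.le, Real.norm_of_nonneg (by linarith)]
  have h3 : l * ‖p + a • d‖ < l * 1 := mul_lt_mul_of_pos_left h1 hl0
  have h4 : (1 - l) * ‖p + b • d‖ ≤ (1 - l) * 1 := mul_le_mul_of_nonneg_left h2 (by linarith)
  linarith

/-- The open cone of directions of chords from `e₀`. -/
def InP (e₀ z : E) : Prop := ∃ ε : ℝ, 0 < ε ∧ ‖e₀ - ε • z‖ < 1

lemma inP_self {e₀ : E} : InP e₀ e₀ := ⟨1, one_pos, by simp⟩

lemma InP.eventually {e₀ z : E} (h : InP e₀ z) : ∀ᶠ w in 𝓝 z, InP e₀ w := by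
  obtain ⟨ε, hε, h1⟩ := h
  have hc : Continuous fun w : E => ‖e₀ - ε • w‖ := by fun_prop
  filter_upwards [hc.continuousAt.eventually (gt_mem_nhds h1)] with w hw
  exact ⟨ε, hε, hw⟩

/-- Exit of a ray from the ball. -/
lemma exit_of_mem {e₀ z : E} (he : ‖e₀‖ = 1) {ε : ℝ} (hε : 0 < ε) (h : ‖e₀ - ε • z‖ < 1) :
    ∃ s, ε < s ∧ ‖e₀ - s • z‖ = 1 ∧ ‖e₀ + (e₀ - s • z)‖ < 2 := by
  have hz : z ≠ 0 := by
    rintro rfl
    simp [he] at h
  have hzn : 0 < ‖z‖ := norm_pos_iff.2 hz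
  obtain ⟨T, hT⟩ : ∃ T, T = ε + 3 / ‖z‖ := ⟨_, rfl⟩
  have hTε : ε < T := by
    rw [hT]
    have : 0 < 3 / ‖z‖ := by positivity
    linarith
  have hTz : 3 ≤ T * ‖z‖ := by
    rw [hT, add_mul, div_mul_cancel₀ _ hzn.ne']
    have : 0 < ε * ‖z‖ := by positivity
    linarith
  have h1 : 1 < ‖e₀ - T • z‖ := by
    have := norm_sub_norm_le (T • z) e₀
    rw [norm_smul, Real.norm_of_nonneg (by linarith), he, norm_sub_rev] at this
    linarith
  have hc : ContinuousOn (fun t : ℝ => ‖e₀ - t • z‖) (Icc ε T) := by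
    exact Continuous.continuousOn (by fun_prop)
  obtain ⟨s, hs, hs1⟩ := intermediate_value_Ioo hTε.le hc ⟨h, h1⟩
  simp only at hs1
  refine ⟨s, hs.1, hs1, ?_⟩
  have hs0 : 0 < s := hε.trans hs.1
  have e : e₀ + (e₀ - s • z) = (2 : ℝ) • (e₀ - (s / 2) • z) := by
    rw [smul_sub, smul_smul, two_smul]
    have : (2 : ℝ) * (s / 2) = s := by ring
    rw [this]
    abel
  have hmid : ‖e₀ - (s / 2) • z‖ < 1 := by
    rcases le_or_gt (s / 2) ε with hc | hc
    · -- between `0` and `ε`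
      have h2 := line_lt' (p := e₀) (d := z) (a := -ε) (b := 0) (t := -(s / 2))
        (by rwa [neg_smul, ← sub_eq_add_neg]) (by simp [he]) (by linarith) (by linarith)
      rwa [neg_smul, ← sub_eq_add_neg] at h2
    · have h2 := line_lt' (p := e₀) (d := -z) (a := ε) (b := s) (t := s / 2)
        (by rwa [smul_neg, ← sub_eq_add_neg]) (by rw [smul_neg, ← sub_eq_add_neg, hs1])
        hc.le (by linarith)
      rwa [smul_neg, ← sub_eq_add_neg] at h2
  rw [e, norm_smul]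
  norm_num
  linarith

/-- **Spanning lemma**: gradients on a dense set of chords have no common kernel. -/
theorem span_zero {e₀ : E} (he : ‖e₀‖ = 1) {A : Set (E × StrongDual ℝ E)}
    (hA : ∀ p ∈ A, ‖p.2‖ ≤ 1 ∧ p.2 p.1 = ‖p.1‖)
    (hdense : ∀ z₁, InP e₀ z₁ → ∀ η : ℝ, 0 < η → ∃ p ∈ A, ‖p.1 - z₁‖ < η) {v : E}
    (hv : ∀ p ∈ A, p.2 v = 0) : v = 0 := by
  by_contra hv0
  have hvn : 0 < ‖v‖ := norm_pos_iff.2 hv0
  have mono : ∀ z₁, InP e₀ z₁ → ∀ t : ℝ, ‖z₁‖ ≤ ‖z₁ + t • v‖ := by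
    intro z₁ hz₁ t
    refine le_of_forall_pos_le_add fun η hη => ?_
    obtain ⟨p, hp, hpz⟩ := hdense z₁ hz₁ (η / 2) (by linarith)
    obtain ⟨h1, h2⟩ := hA p hp
    have h3 : ‖p.1‖ ≤ ‖p.1 + t • v‖ := by
      have h4 : p.2 (p.1 + t • v) = ‖p.1‖ := by
        rw [map_add, map_smul, hv p hp, h2]
        simp
      rw [← h4]
      exact fle _ h1 _
    have h5 : ‖z₁‖ ≤ ‖p.1‖ + ‖p.1 - z₁‖ := by
      have := norm_sub_norm_le z₁ p.1
      rw [norm_sub_rev] at this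
      linarith
    have h6 : ‖p.1 + t • v‖ ≤ ‖z₁ + t • v‖ + ‖p.1 - z₁‖ := by
      have e : p.1 + t • v = (z₁ + t • v) + (p.1 - z₁) := by abel
      rw [e]
      exact norm_add_le _ _
    linarith
  have same : ∀ z₁, InP e₀ z₁ → ∀ t : ℝ, InP e₀ (z₁ + t • v) → ‖z₁ + t • v‖ = ‖z₁‖ := by
    intro z₁ h₁ t h₂
    refine le_antisymm ?_ (mono z₁ h₁ t)
    have := mono _ h₂ (-t)
    rwa [neg_smul, add_neg_cancel_right] at this
  -- near `e₀`
  have hnear : ∀ᶠ s in 𝓝 (0 : ℝ), InP e₀ (e₀ + s • v) := by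
    have hc : Tendsto (fun s : ℝ => e₀ + s • v) (𝓝 0) (𝓝 e₀) := by
      have : Continuous fun s : ℝ => e₀ + s • v := by fun_prop
      simpa using this.tendsto (0 : ℝ)
    exact hc.eventually (inP_self.eventually)
  obtain ⟨s₀, hs₀, hball⟩ := Metric.eventually_nhds_iff.1 hnear
  have hunit : ∀ r : ℝ, |r| < s₀ → ‖e₀ + r • v‖ = 1 := by
    intro r hr
    have h1 : InP e₀ (e₀ + r • v) := @hball r (by rwa [Real.dist_eq, sub_zero])
    rw [same e₀ inP_self r h1, he]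
  -- every point of the line on the sphere is in the cone
  have hinP : ∀ t : ℝ, ‖e₀ + t • v‖ = 1 → InP e₀ (e₀ + t • v) := by
    intro t _
    obtain ⟨ε, hε⟩ : ∃ ε : ℝ, ε = min (1 / 2) (s₀ / (4 * (|t| + 1))) := ⟨_, rfl⟩
    have hε0 : 0 < ε := by
      rw [hε]
      positivity
    have hε1 : ε ≤ 1 / 2 := hε ▸ min_le_left _ _
    have hε2 : ε ≤ s₀ / (4 * (|t| + 1)) := hε ▸ min_le_right _ _
    refine ⟨ε, hε0, ?_⟩
    obtain ⟨r, hr⟩ : ∃ r, r = -(ε * t) / (1 - ε) := ⟨_, rfl⟩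
    have h1e : 0 < 1 - ε := by linarith
    have e : e₀ - ε • (e₀ + t • v) = (1 - ε) • (e₀ + r • v) := by
      have h0 : (1 - ε) * r = -(ε * t) := by
        rw [hr]
        field_simp
      have h5 : (1 - ε) • (e₀ + r • v) = (1 - ε) • e₀ + ((1 - ε) * r) • v := by
        rw [smul_add, smul_smul]
      rw [h5, h0, smul_add, smul_smul, sub_smul, one_smul, neg_smul]
      abel
    have hr2 : |r| < s₀ := by
      rw [hr, abs_div, abs_neg, abs_mul, abs_of_pos hε0, abs_of_pos h1e, div_lt_iff₀ h1e]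
      have h2 : ε * (4 * (|t| + 1)) ≤ s₀ := by
        rwa [le_div_iff₀ (by positivity)] at hε2
      nlinarith [abs_nonneg t]
    rw [e, norm_smul, Real.norm_of_nonneg h1e.le, hunit r hr2]
    linarith
  -- the set of times on the sphere
  let J : Set ℝ := {t | 0 ≤ t ∧ ‖e₀ + t • v‖ = 1}
  have hJc : IsClosed J := by
    refine (isClosed_le continuous_const continuous_id).inter ?_
    exact isClosed_eq (by fun_prop) continuous_const
  have hJb : BddAbove J := by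
    refine ⟨2 / ‖v‖, fun t ht => ?_⟩
    have h1 := norm_sub_norm_le (t • v) (-e₀)
    rw [norm_smul, Real.norm_of_nonneg ht.1, norm_neg, he, sub_neg_eq_add, add_comm, ht.2] at h1
    rw [le_div_iff₀ hvn]
    linarith
  have hJn : J.Nonempty := ⟨0, le_rfl, by simp [he]⟩
  have htop := hJc.csSup_mem hJn hJb
  obtain ⟨t₀, ht₀⟩ : ∃ t₀, t₀ = sSup J := ⟨_, rfl⟩
  rw [← ht₀] at htop
  have h1 := hinP t₀ htop.2
  have hc : Tendsto (fun s : ℝ => e₀ + t₀ • v + s • v) (𝓝 0) (𝓝 (e₀ + t₀ • v)) := by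
    have : Continuous fun s : ℝ => e₀ + t₀ • v + s • v := by fun_prop
    simpa using this.tendsto (0 : ℝ)
  obtain ⟨δ, hδ, hb⟩ := Metric.eventually_nhds_iff.1 (hc.eventually h1.eventually)
  obtain ⟨r, hrd⟩ : ∃ r, r = δ / 2 := ⟨_, rfl⟩
  have hr2 : 0 < r := by
    rw [hrd]
    positivity
  have hr : InP e₀ (e₀ + t₀ • v + r • v) := @hb r (by
    rw [Real.dist_eq, sub_zero, abs_of_pos hr2, hrd]
    linarith)
  have h2 := same _ h1 r hr
  have e : e₀ + t₀ • v + r • v = e₀ + (t₀ + r) • v := by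
    rw [add_smul, add_assoc]
  rw [e, htop.2] at h2
  have h3 : t₀ + r ∈ J := ⟨by linarith [htop.1], h2⟩
  have h4 : t₀ + r ≤ t₀ := by
    rw [ht₀] at h3 ⊢
    exact le_csSup hJb h3
  linarith

end Line

end Vale.Agent.Lib.P084.Far
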