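import Mathlib
import Vale.Agent.Lib.P084.Far.Span

/-! Linearisation of a sphere isometry at an arbitrary point through far chords. -/

namespace Vale.Agent.Lib.P084.Far

open Set Metric Filter Topology

section Est

variable {E : Type*} [NormedAddCommGroup E] [NormedSpace ℝ E]

lemma Reg.upper {z : E} (hz : Reg z) {φ : StrongDual ℝ E} (hφ : ‖φ‖ ≤ 1) (hφz : φ z = ‖z‖) :
    ∃ C : ℝ, ∀ᶠ w in 𝓝 (0 : E), ‖z + w‖ - ‖z‖ - φ w ≤ C * ‖w‖ ^ 2 := by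
  obtain ⟨C, hC⟩ := hz
  refine ⟨C, ?_⟩
  filter_upwards [hC] with w hw
  have h1 : φ (z - w) ≤ ‖z - w‖ := fle φ hφ _
  rw [map_sub, hφz] at h1
  linarith

lemma lower_est {z : E} {φ : StrongDual ℝ E} (hφ : ‖φ‖ ≤ 1) (hφz : φ z = ‖z‖) (w : E) :
    0 ≤ ‖z + w‖ - ‖z‖ - φ w := by
  have h1 : φ (z + w) ≤ ‖z + w‖ := fle φ hφ _
  rw [map_add, hφz] at h1
  linarith

/-- A functional vanishing to second order on the sphere at a point where the second symmetric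
difference of the norm is infinite is zero. -/
theorem eq_zero_of_second_order {x₀ : E} (hx₀ : ‖x₀‖ = 1) (hR : ¬ Reg x₀) {D : StrongDual ℝ E}
    {C : ℝ} (h : ∀ᶠ y in 𝓝 x₀, ‖y‖ = 1 → |D (y - x₀)| ≤ C * ‖y - x₀‖ ^ 2) : D = 0 := by
  have hC0 : ∀ᶠ y in 𝓝 x₀, ‖y‖ = 1 → |D (y - x₀)| ≤ |C| * ‖y - x₀‖ ^ 2 := by
    filter_upwards [h] with y hy hy1
    refine (hy hy1).trans (mul_le_mul_of_nonneg_right (le_abs_self _) (by positivity))
  have hx0 : x₀ ≠ 0 := by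
    rintro rfl
    simp at hx₀
  -- the normalisation map
  have hcont : ContinuousAt (fun z : E => ‖x₀ + z‖⁻¹ • (x₀ + z)) 0 := by
    have h1 : ‖x₀ + (0 : E)‖ ≠ 0 := by simp [hx₀]
    refine ContinuousAt.smul (ContinuousAt.inv₀ (by fun_prop) h1) (by fun_prop)
  have hval : (fun z : E => ‖x₀ + z‖⁻¹ • (x₀ + z)) 0 = x₀ := by simp [hx₀]
  have h1 : ∀ᶠ z in 𝓝 (0 : E), ‖(‖x₀ + z‖⁻¹ • (x₀ + z))‖ = 1 →
      |D (‖x₀ + z‖⁻¹ • (x₀ + z) - x₀)| ≤ |C| * ‖‖x₀ + z‖⁻¹ • (x₀ + z) - x₀‖ ^ 2 :=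
    hcont.eventually (by rw [hval]; exact hC0)
  have h2 : ∀ᶠ z in 𝓝 (0 : E), ‖z‖ < 1 / 2 := by
    have h0 := (continuous_norm (E := E)).tendsto 0
    rw [norm_zero] at h0
    exact h0.eventually (gt_mem_nhds (by norm_num))
  -- the basic inequality
  have key : ∀ᶠ z in 𝓝 (0 : E), |D z - (‖x₀ + z‖ - 1) * D x₀| ≤ 24 * |C| * ‖z‖ ^ 2 := by
    filter_upwards [h1, h2] with z hz hzs
    obtain ⟨r, hr⟩ : ∃ r, r = ‖x₀ + z‖ := ⟨_, rfl⟩
    have hr1 : |r - 1| ≤ ‖z‖ := by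
      have := abs_norm_sub_norm_le (x₀ + z) x₀
      rw [add_sub_cancel_left, hx₀] at this
      rwa [hr]
    have hr2 : 1 / 2 ≤ r := by
      have := (abs_le.1 hr1).1
      linarith
    have hr3 : r ≤ 3 / 2 := by
      have := (abs_le.1 hr1).2
      linarith
    have hr0 : 0 < r := by linarith
    have hne : x₀ + z ≠ 0 := by
      rw [← norm_pos_iff, ← hr]
      exact hr0
    have hunit : ‖‖x₀ + z‖⁻¹ • (x₀ + z)‖ = 1 := unit_of_ne hne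
    have h3 := hz hunit
    rw [← hr] at h3
    have e1 : r⁻¹ • (x₀ + z) - x₀ = r⁻¹ • (z - (r - 1) • x₀) := by
      have h0 : r⁻¹ * (r - 1) = 1 - r⁻¹ := by
        field_simp
      rw [smul_add, smul_sub, smul_smul, h0, sub_smul, one_smul]
      abel
    rw [e1, map_smul, map_sub, map_smul, smul_eq_mul, smul_eq_mul, norm_smul, abs_mul,
      norm_inv, Real.norm_of_nonneg hr0.le, abs_of_pos (inv_pos.2 hr0)] at h3
    have h4 : ‖z - (r - 1) • x₀‖ ≤ 2 * ‖z‖ := by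
      refine (norm_sub_le _ _).trans ?_
      rw [norm_smul, hx₀, mul_one, Real.norm_eq_abs]
      linarith
    have hrinv : r⁻¹ ≤ 2 := by
      rw [inv_le_comm₀ hr0 (by norm_num)]
      linarith
    have h5 : (r⁻¹ * ‖z - (r - 1) • x₀‖) ^ 2 ≤ (r⁻¹ * (2 * ‖z‖)) ^ 2 := by
      refine pow_le_pow_left₀ (by positivity) ?_ 2
      exact mul_le_mul_of_nonneg_left h4 (inv_pos.2 hr0).le
    have h6 : r⁻¹ * |D z - (r - 1) * D x₀| ≤ |C| * (r⁻¹ * (2 * ‖z‖)) ^ 2 :=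
      h3.trans (mul_le_mul_of_nonneg_left h5 (abs_nonneg _))
    have h7 : |D z - (r - 1) * D x₀| ≤ r * (|C| * (r⁻¹ * (2 * ‖z‖)) ^ 2) := by
      have h8 := mul_le_mul_of_nonneg_left h6 hr0.le
      rwa [← mul_assoc, mul_inv_cancel₀ hr0.ne', one_mul] at h8
    rw [← hr]
    refine h7.trans ?_
    have e2 : r * (|C| * (r⁻¹ * (2 * ‖z‖)) ^ 2) = r⁻¹ * (4 * |C| * ‖z‖ ^ 2) := by
      field_simp
      ring
    rw [e2]
    have h9 : 0 ≤ 4 * |C| * ‖z‖ ^ 2 := by positivity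
    calc r⁻¹ * (4 * |C| * ‖z‖ ^ 2) ≤ 2 * (4 * |C| * ‖z‖ ^ 2) :=
          mul_le_mul_of_nonneg_right hrinv h9
      _ ≤ 24 * |C| * ‖z‖ ^ 2 := by nlinarith
  have key' : ∀ᶠ z in 𝓝 (0 : E), |D (-z) - (‖x₀ + -z‖ - 1) * D x₀| ≤ 24 * |C| * ‖-z‖ ^ 2 := by
    have hneg : Tendsto (fun z : E => -z) (𝓝 0) (𝓝 0) := by
      simpa using (continuous_neg (G := E)).tendsto 0
    exact hneg.eventually key
  -- the value at `x₀` vanishes
  have hc : D x₀ = 0 := by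
    by_contra hne
    have hpos : 0 < |D x₀| := abs_pos.2 hne
    refine hR ⟨48 * |C| / |D x₀|, ?_⟩
    filter_upwards [key, key'] with z h3 h4
    rw [map_neg, norm_neg] at h4
    have e : (‖x₀ + z‖ + ‖x₀ - z‖ - 2) * D x₀ =
        -((D z - (‖x₀ + z‖ - 1) * D x₀) + (-D z - (‖x₀ + -z‖ - 1) * D x₀)) := by
      rw [sub_eq_add_neg x₀ z]
      ring
    have h5 : |(‖x₀ + z‖ + ‖x₀ - z‖ - 2) * D x₀| ≤ 48 * |C| * ‖z‖ ^ 2 := by
      rw [e, abs_neg]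
      refine (abs_add_le _ _).trans ?_
      linarith
    rw [abs_mul] at h5
    have h6 : (‖x₀ + z‖ + ‖x₀ - z‖ - 2) * |D x₀| ≤ 48 * |C| * ‖z‖ ^ 2 :=
      (mul_le_mul_of_nonneg_right (le_abs_self _) hpos.le).trans h5
    rw [hx₀, mul_one]
    rw [div_mul_eq_mul_div, le_div_iff₀ hpos]
    exact h6
  -- and then everything vanishes
  rw [hc] at key
  obtain ⟨δ, hδ, hb⟩ := Metric.eventually_nhds_iff.1 key
  ext v
  by_contra hne
  have hv0 : v ≠ 0 := by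
    rintro rfl
    exact hne (by simp)
  have hvn : 0 < ‖v‖ := norm_pos_iff.2 hv0
  have hDv : 0 < |D v| := abs_pos.2 hne
  obtain ⟨t, ht⟩ : ∃ t : ℝ, t = min (δ / (2 * ‖v‖)) (|D v| / (2 * (24 * |C| * ‖v‖ ^ 2 + 1))) :=
    ⟨_, rfl⟩
  have ht0 : 0 < t := by
    rw [ht]
    positivity
  have ht1 : t ≤ δ / (2 * ‖v‖) := ht ▸ min_le_left _ _
  have ht2 : t ≤ |D v| / (2 * (24 * |C| * ‖v‖ ^ 2 + 1)) := ht ▸ min_le_right _ _
  have h3 : ‖t • v‖ < δ := by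
    rw [norm_smul, Real.norm_of_nonneg ht0.le]
    rw [le_div_iff₀ (by positivity)] at ht1
    nlinarith
  have h4 := @hb (t • v) (by rwa [dist_zero_right])
  rw [map_smul, smul_eq_mul, mul_zero, sub_zero, abs_mul, abs_of_pos ht0, norm_smul,
    Real.norm_of_nonneg ht0.le] at h4
  have h5 : |D v| ≤ 24 * |C| * ‖v‖ ^ 2 * t := by
    have e : 24 * |C| * (t * ‖v‖) ^ 2 = t * (24 * |C| * ‖v‖ ^ 2 * t) := by ring
    rw [e] at h4
    exact le_of_mul_le_mul_left h4 ht0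
  rw [le_div_iff₀ (by positivity)] at ht2
  have h6 : 0 ≤ 24 * |C| * ‖v‖ ^ 2 := by positivity
  have h7 : (24 * |C| * ‖v‖ ^ 2) * t ≤ (24 * |C| * ‖v‖ ^ 2 + 1) * t := by nlinarith
  have h8 : t * (2 * (24 * |C| * ‖v‖ ^ 2 + 1)) ≤ |D v| := ht2
  have h9 : 0 < (24 * |C| * ‖v‖ ^ 2 + 1) * t := by positivity
  nlinarith

end Est

section Chord

variable {X Y : Type*} [NormedAddCommGroup X] [NormedSpace ℝ X]
  [NormedAddCommGroup Y] [NormedSpace ℝ Y] {g : X → Y} {h : Y → X}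

/-- A good chord from `x₀`, with norming functionals of both of its images. -/
structure IsChord (g : X → Y) (x₀ u : X) (φ : StrongDual ℝ X) (Φ : StrongDual ℝ Y) : Prop where
  unit : ‖u‖ = 1
  mid : ‖x₀ + u‖ < 2
  regX : Reg (x₀ - u)
  regY : Reg (g x₀ - g u)
  φle : ‖φ‖ ≤ 1
  φval : φ (x₀ - u) = ‖x₀ - u‖
  Φle : ‖Φ‖ ≤ 1
  Φval : Φ (g x₀ - g u) = ‖g x₀ - g u‖

/-- The first order expansion along a good chord. -/
theorem chord_est (H : SphereIso g h) {x₀ u : X} {φ : StrongDual ℝ X} {Φ : StrongDual ℝ Y}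
    (hx₀ : ‖x₀‖ = 1) (hc : IsChord g x₀ u φ Φ) :
    ∃ C : ℝ, ∀ᶠ y in 𝓝 x₀, ‖y‖ = 1 → |φ (y - x₀) - Φ (g y - g x₀)| ≤ C * ‖y - x₀‖ ^ 2 := by
  obtain ⟨C₁, h₁⟩ := hc.regX.upper hc.φle hc.φval
  obtain ⟨C₂, h₂⟩ := hc.regY.upper hc.Φle hc.Φval
  obtain ⟨δ₁, hδ₁, b₁⟩ := Metric.eventually_nhds_iff.1 h₁
  obtain ⟨δ₂, hδ₂, b₂⟩ := Metric.eventually_nhds_iff.1 h₂
  refine ⟨|C₁| + |C₂|, ?_⟩
  refine Metric.eventually_nhds_iff.2 ⟨min δ₁ δ₂, lt_min hδ₁ hδ₂, fun {y} hy hy1 => ?_⟩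
  rw [dist_eq_norm] at hy
  have ha1 : ‖y - x₀‖ < δ₁ := hy.trans_le (min_le_left _ _)
  have ha2 : ‖y - x₀‖ < δ₂ := hy.trans_le (min_le_right _ _)
  have hiso : ‖g y - g x₀‖ = ‖y - x₀‖ := H.iso y x₀ hy1 hx₀
  have u1 := @b₁ (y - x₀) (by rwa [dist_zero_right])
  have u2 := @b₂ (g y - g x₀) (by rw [dist_zero_right, hiso]; exact ha2)
  have l1 := lower_est hc.φle hc.φval (y - x₀)
  have l2 := lower_est hc.Φle hc.Φval (g y - g x₀)
  have e1 : x₀ - u + (y - x₀) = y - u := by abel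
  have e2 : g x₀ - g u + (g y - g x₀) = g y - g u := by abel
  rw [e1] at u1 l1
  rw [e2, hiso] at u2
  rw [e2] at l2
  have i1 : ‖g y - g u‖ = ‖y - u‖ := H.iso y u hy1 hc.unit
  have i2 : ‖g x₀ - g u‖ = ‖x₀ - u‖ := H.iso x₀ u hx₀ hc.unit
  rw [i1, i2] at u2 l2
  have hq : 0 ≤ ‖y - x₀‖ ^ 2 := by positivity
  have c1 : C₁ * ‖y - x₀‖ ^ 2 ≤ |C₁| * ‖y - x₀‖ ^ 2 :=
    mul_le_mul_of_nonneg_right (le_abs_self _) hq
  have c2 : C₂ * ‖y - x₀‖ ^ 2 ≤ |C₂| * ‖y - x₀‖ ^ 2 :=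
    mul_le_mul_of_nonneg_right (le_abs_self _) hq
  have c3 : 0 ≤ |C₁| * ‖y - x₀‖ ^ 2 := by positivity
  have c4 : 0 ≤ |C₂| * ‖y - x₀‖ ^ 2 := by positivity
  rw [abs_le]
  constructor <;> nlinarith

variable [FiniteDimensional ℝ X] [FiniteDimensional ℝ Y] [Nontrivial X]

/-- Good chords with functionals near any transversal chord. -/
lemma exists_chord (H : SphereIso g h) {x₀ u₁ : X} (hx₀ : ‖x₀‖ = 1) (hu₁ : ‖u₁‖ = 1)
    (hmid : ‖x₀ + u₁‖ < 2) {ε : ℝ} (hε : 0 < ε) :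
    ∃ u φ Φ, IsChord g x₀ u φ Φ ∧ ‖u - u₁‖ < ε := by
  obtain ⟨u, hu, hue, hum, hr1, hr2⟩ := exists_good H hx₀ hu₁ hmid hε
  obtain ⟨φ, hφ, hφv⟩ := exists_dual_vector'' ℝ (x₀ - u)
  obtain ⟨Φ, hΦ, hΦv⟩ := exists_dual_vector'' ℝ (g x₀ - g u)
  exact ⟨u, φ, Φ, ⟨hu, hum, hr1, hr2, hφ, by simpa using hφv, hΦ, by simpa using hΦv⟩, hue⟩

/-- The gradients at the images of good chords have no common kernel. -/
theorem span_Y (H : SphereIso g h) {x₀ : X} (hx₀ : ‖x₀‖ = 1) {v : Y}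
    (hv : ∀ u φ Φ, IsChord g x₀ u φ Φ → Φ v = 0) : v = 0 := by
  have hy₀ : ‖g x₀‖ = 1 := H.map_g _ hx₀
  let A : Set (Y × StrongDual ℝ Y) := {q | ∃ (u : X) (φ : StrongDual ℝ X) (Φ : StrongDual ℝ Y) (s : ℝ),
    IsChord g x₀ u φ Φ ∧ 0 < s ∧
    q.1 = s • (g x₀ - g u) ∧ q.2 = Φ}
  refine span_zero hy₀ (A := A) ?_ ?_ ?_
  · rintro q ⟨u, φ, Φ, s, hc, hs, h1, h2⟩
    rw [h1, h2]
    refine ⟨hc.Φle, ?_⟩
    rw [map_smul, hc.Φval, norm_smul, Real.norm_of_nonneg hs.le, smul_eq_mul]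
  · rintro z₁ ⟨ε, hε, hz⟩ η hη
    obtain ⟨s, hs, hs1, hs2⟩ := exit_of_mem hy₀ hε hz
    have hs0 : 0 < s := hε.trans hs
    have hg : g (h (g x₀ - s • z₁)) = g x₀ - s • z₁ := H.right _ hs1
    have hu₁ : ‖h (g x₀ - s • z₁)‖ = 1 := H.map_h _ hs1
    have hmid : ‖x₀ + h (g x₀ - s • z₁)‖ < 2 := by
      rw [← norm_add_image H hx₀ hu₁, hg]
      exact hs2
    obtain ⟨u, φ, Φ, hc, hu⟩ := exists_chord H hx₀ hu₁ hmid (mul_pos hs0 hη)
    refine ⟨(s⁻¹ • (g x₀ - g u), Φ), ⟨u, φ, Φ, s⁻¹, hc, inv_pos.2 hs0, rfl, rfl⟩, ?_⟩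
    have e : s⁻¹ • (g x₀ - g u) - z₁ = s⁻¹ • (g (h (g x₀ - s • z₁)) - g u) := by
      rw [hg, smul_sub, smul_sub, smul_sub, smul_smul, inv_mul_cancel₀ hs0.ne', one_smul]
      abel
    simp only
    rw [e, norm_smul, norm_inv, Real.norm_of_nonneg hs0.le, H.iso _ _ hu₁ hc.unit, norm_sub_rev,
      inv_mul_lt_iff₀ hs0]
    exact hu
  · rintro q ⟨u, φ, Φ, s, hc, hs, h1, h2⟩
    rw [h2]
    exact hv u φ Φ hc

/-- The gradients at good chords have no common kernel. -/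
theorem span_X (H : SphereIso g h) {x₀ : X} (hx₀ : ‖x₀‖ = 1) {v : X}
    (hv : ∀ u φ Φ, IsChord g x₀ u φ Φ → φ v = 0) : v = 0 := by
  let A : Set (X × StrongDual ℝ X) := {q | ∃ (u : X) (φ : StrongDual ℝ X) (Φ : StrongDual ℝ Y) (s : ℝ),
    IsChord g x₀ u φ Φ ∧ 0 < s ∧
    q.1 = s • (x₀ - u) ∧ q.2 = φ}
  refine span_zero hx₀ (A := A) ?_ ?_ ?_
  · rintro q ⟨u, φ, Φ, s, hc, hs, h1, h2⟩
    rw [h1, h2]
    refine ⟨hc.φle, ?_⟩
    rw [map_smul, hc.φval, norm_smul, Real.norm_of_nonneg hs.le, smul_eq_mul]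
  · rintro z₁ ⟨ε, hε, hz⟩ η hη
    obtain ⟨s, hs, hs1, hs2⟩ := exit_of_mem hx₀ hε hz
    have hs0 : 0 < s := hε.trans hs
    obtain ⟨u, φ, Φ, hc, hu⟩ := exists_chord H hx₀ hs1 hs2 (mul_pos hs0 hη)
    refine ⟨(s⁻¹ • (x₀ - u), φ), ⟨u, φ, Φ, s⁻¹, hc, inv_pos.2 hs0, rfl, rfl⟩, ?_⟩
    have e : s⁻¹ • (x₀ - u) - z₁ = s⁻¹ • ((x₀ - s • z₁) - u) := by
      rw [smul_sub, smul_sub, smul_sub, smul_smul, inv_mul_cancel₀ hs0.ne', one_smul]
      abel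
    simp only
    rw [e, norm_smul, norm_inv, Real.norm_of_nonneg hs0.le, norm_sub_rev, inv_mul_lt_iff₀ hs0]
    exact hu
  · rintro q ⟨u, φ, Φ, s, hc, hs, h1, h2⟩
    rw [h2]
    exact hv u φ Φ hc

omit [FiniteDimensional ℝ X] [Nontrivial X] in
lemma finrank_strongDual : Module.finrank ℝ (StrongDual ℝ Y) = Module.finrank ℝ Y := by
  have e : (Y →ₗ[ℝ] ℝ) ≃ₗ[ℝ] (Y →L[ℝ] ℝ) := LinearMap.toContinuousLinearMap
  have h1 := e.finrank_eq
  have h2 : Module.finrank ℝ (Module.Dual ℝ Y) = Module.finrank ℝ Y := Subspace.dual_finrank_eq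
  exact h1.symm.trans h2

/-- **Linearisation at an arbitrary point of the sphere.** -/
theorem exists_L (H : SphereIso g h) {x₀ : X} (hx₀ : ‖x₀‖ = 1) :
    ∃ (L : X →L[ℝ] Y) (K : ℝ), ∀ᶠ y in 𝓝 x₀, ‖y‖ = 1 →
      ‖g y - g x₀ - L (y - x₀)‖ ≤ K * ‖y - x₀‖ ^ 2 := by
  classical
  let B : Set (StrongDual ℝ Y) := {Φ | ∃ u φ, IsChord g x₀ u φ Φ}
  obtain ⟨b, hbB, hbspan, hbind⟩ := exists_linearIndependent ℝ B
  have : Finite b := hbind.finite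
  have : Fintype b := Fintype.ofFinite b
  let M : Y →ₗ[ℝ] (b → ℝ) := LinearMap.pi fun i => ((i : StrongDual ℝ Y) : Y →ₗ[ℝ] ℝ)
  have hM : ∀ v i, M v i = (i : StrongDual ℝ Y) v := fun v i => rfl
  have hinj : Function.Injective M := by
    rw [injective_iff_map_eq_zero]
    intro v hv
    refine span_Y H hx₀ fun u φ Φ hc => ?_
    have hΦ : Φ ∈ Submodule.span ℝ b := by
      rw [hbspan]
      exact Submodule.subset_span ⟨u, φ, hc⟩
    refine Submodule.span_induction (p := fun Ψ _ => Ψ v = 0) ?_ ?_ ?_ ?_ hΦ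
    · intro Ψ hΨ
      have := congrFun hv ⟨Ψ, hΨ⟩
      simpa [hM] using this
    · simp
    · intro a c _ _ ha hc
      simp [ha, hc]
    · intro r a _ ha
      simp [ha]
  have hcard : Fintype.card b ≤ Module.finrank ℝ Y := by
    have := hbind.fintype_card_le_finrank
    rwa [finrank_strongDual] at this
  have hrank : Module.finrank ℝ Y = Module.finrank ℝ (b → ℝ) := by
    rw [Module.finrank_fintype_fun_eq_card]
    refine le_antisymm ?_ hcard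
    have := LinearMap.finrank_le_finrank_of_injective hinj
    rwa [Module.finrank_fintype_fun_eq_card] at this
  have hsurj : Function.Surjective M :=
    (LinearMap.injective_iff_surjective_of_finrank_eq_finrank hrank).1 hinj
  let e : Y ≃L[ℝ] (b → ℝ) := (LinearEquiv.ofBijective M ⟨hinj, hsurj⟩).toContinuousLinearEquiv
  have he : ∀ v i, e v i = (i : StrongDual ℝ Y) v := fun v i => rfl
  have hpart : ∀ i : b, ∃ u φ, IsChord g x₀ u φ (i : StrongDual ℝ Y) := fun i => hbB i.2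
  choose u φ hc using hpart
  let N : X →L[ℝ] (b → ℝ) := ContinuousLinearMap.pi fun i => φ i
  have hN : ∀ x i, N x i = φ i x := fun x i => rfl
  let L : X →L[ℝ] Y := (e.symm : (b → ℝ) →L[ℝ] Y).comp N
  have hL : ∀ x, e (L x) = N x := fun x => by
    simp [L]
  choose C hC using fun i => chord_est H hx₀ (hc i)
  refine ⟨L, ‖(e.symm : (b → ℝ) →L[ℝ] Y)‖ * ∑ i, |C i|, ?_⟩
  filter_upwards [eventually_all.2 hC] with y hy hy1
  obtain ⟨a, ha⟩ : ∃ a, a = g y - g x₀ - L (y - x₀) := ⟨_, rfl⟩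
  rw [← ha]
  have hea : ‖e a‖ ≤ (∑ i, |C i|) * ‖y - x₀‖ ^ 2 := by
    rw [pi_norm_le_iff_of_nonneg (by positivity)]
    intro i
    have h1 : e a i = (i : StrongDual ℝ Y) (g y - g x₀) - φ i (y - x₀) := by
      rw [ha, map_sub, Pi.sub_apply, hL, hN, he]
    rw [h1, Real.norm_eq_abs, abs_sub_comm]
    refine (hy i hy1).trans ?_
    refine mul_le_mul_of_nonneg_right ?_ (by positivity)
    refine (le_abs_self _).trans ?_
    exact Finset.single_le_sum (f := fun i => |C i|) (fun _ _ => abs_nonneg _) (Finset.mem_univ i)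
  have h2 : a = (e.symm : (b → ℝ) →L[ℝ] Y) (e a) := by simp
  rw [h2]
  refine ((e.symm : (b → ℝ) →L[ℝ] Y).le_opNorm _).trans ?_
  rw [mul_assoc]
  exact mul_le_mul_of_nonneg_left hea (norm_nonneg _)

/-- **The exact relation at a point of infinite second difference.** -/
theorem exists_exact (H : SphereIso g h) {x₀ : X} (hx₀ : ‖x₀‖ = 1) (hR : ¬ Reg x₀) :
    ∃ L : X →L[ℝ] Y, ∀ u φ Φ, IsChord g x₀ u φ Φ → ∀ z, Φ (L z) = φ z := by
  obtain ⟨L, K, hK⟩ := exists_L H hx₀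
  refine ⟨L, fun u φ Φ hc z => ?_⟩
  obtain ⟨C, hC⟩ := chord_est H hx₀ hc
  have hD : Φ.comp L - φ = 0 := by
    refine eq_zero_of_second_order hx₀ hR (C := K + C) ?_
    filter_upwards [hK, hC] with y h1 h2 hy
    have h3 := h1 hy
    have h4 := h2 hy
    have e : (Φ.comp L - φ) (y - x₀) =
        -(Φ (g y - g x₀ - L (y - x₀))) - (φ (y - x₀) - Φ (g y - g x₀)) := by
      simp only [_root_.sub_apply, ContinuousLinearMap.comp_apply, map_sub]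
      ring
    rw [e]
    refine (abs_sub _ _).trans ?_
    rw [abs_neg, add_mul]
    have h5 := functional_le Φ hc.Φle (x := g y - g x₀ - L (y - x₀))
    linarith
  have := congrArg (fun D : StrongDual ℝ X => D z) hD
  simp only [_root_.sub_apply, ContinuousLinearMap.comp_apply,
    _root_.zero_apply] at this
  linarith

end Chord

end Vale.Agent.Lib.P084.Far
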