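import Mathlib
import Vale.Agent.Lib.P084.Far.Lin
import Vale.Agent.Lib.P084.Propagate
import Vale.Agent.Lib.P084.LinfSum

/-! The Mazur-Ulam property from one point of infinite second symmetric difference. -/

namespace Vale.Agent.Lib.P084.Far

open Set Metric Filter Topology

section Main

variable {X Y : Type*} [NormedAddCommGroup X] [NormedSpace ℝ X]
  [NormedAddCommGroup Y] [NormedSpace ℝ Y] {g : X → Y} {h : Y → X}
  [FiniteDimensional ℝ X] [FiniteDimensional ℝ Y] [Nontrivial X]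

/-- A direction whose image under the relation lies in the cone of chords of the target lies in
the cone of chords of the source. -/
lemma transfer_inP (H : SphereIso g h) {x₀ : X} (hx₀ : ‖x₀‖ = 1) {L : X →L[ℝ] Y}
    (hL : ∀ u φ Φ, IsChord g x₀ u φ Φ → ∀ z, Φ (L z) = φ z) {a : X} {ε : ℝ} (hε : 0 < ε)
    (hlt : ‖g x₀ - ε • L a‖ < 1) : InP x₀ a := by
  obtain ⟨η, hη⟩ : ∃ η, η = 1 - ‖g x₀ - ε • L a‖ := ⟨_, rfl⟩
  have hη0 : 0 < η := by linarith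
  obtain ⟨ρ, hρ⟩ : ∃ ρ, ρ = min (1 / 3 : ℝ) (η / 48) := ⟨_, rfl⟩
  have hρ0 : 0 < ρ := by
    rw [hρ]
    positivity
  have hρ1 : ρ ≤ 1 / 3 := hρ ▸ min_le_left _ _
  have hρ2 : ρ ≤ η / 48 := hρ ▸ min_le_right _ _
  obtain ⟨ε', hε'⟩ : ∃ ε', ε' = ρ / (‖a‖ + 1) := ⟨_, rfl⟩
  have ha1 : 0 < ‖a‖ + 1 := by positivity
  have hε'0 : 0 < ε' := by
    rw [hε']
    positivity
  have hεa : ε' * ‖a‖ ≤ ρ := by
    rw [hε', div_mul_eq_mul_div, div_le_iff₀ ha1]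
    nlinarith [norm_nonneg a]
  obtain ⟨b, hb⟩ : ∃ b, b = x₀ - ε' • a := ⟨_, rfl⟩
  have heb : ‖x₀ - b‖ = ε' * ‖a‖ := by
    rw [hb, sub_sub_cancel, norm_smul, Real.norm_of_nonneg hε'0.le]
  have hlt1 : ‖x₀ - (1 : ℝ) • b‖ < 1 := by
    rw [one_smul, heb]
    linarith
  obtain ⟨s, hs, hs1, hs2⟩ := exit_of_mem hx₀ one_pos hlt1
  have hs0 : 0 < s := by linarith
  obtain ⟨ustar, hustar⟩ : ∃ ustar, ustar = x₀ - s • b := ⟨_, rfl⟩
  rw [← hustar] at hs1 hs2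
  obtain ⟨e₁, he₁⟩ : ∃ e₁, e₁ = ‖x₀ - b‖ := ⟨_, rfl⟩
  have he₁0 : 0 ≤ e₁ := he₁ ▸ norm_nonneg _
  have he₁ρ : e₁ ≤ ρ := by
    rw [he₁, heb]
    exact hεa
  -- location of the exit point
  have hsub : ustar = (1 - s) • x₀ + s • (x₀ - b) := by
    rw [hustar, smul_sub, sub_smul, one_smul]
    abel
  have hs1a : s - 1 ≤ 1 + s * e₁ := by
    have h1 : ‖(1 - s) • x₀‖ ≤ ‖ustar‖ + ‖s • (x₀ - b)‖ := by
      have e : (1 - s) • x₀ = ustar - s • (x₀ - b) := by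
        rw [hsub]
        abel
      rw [e]
      exact norm_sub_le _ _
    rw [norm_smul, hx₀, mul_one, Real.norm_eq_abs, abs_of_neg (by linarith), hs1, norm_smul,
      Real.norm_of_nonneg hs0.le, ← he₁] at h1
    linarith
  have hs1b : 1 ≤ s - 1 + s * e₁ := by
    have h1 : ‖ustar‖ ≤ ‖(1 - s) • x₀‖ + ‖s • (x₀ - b)‖ := by
      rw [hsub]
      exact norm_add_le _ _
    rw [norm_smul, hx₀, mul_one, Real.norm_eq_abs, abs_of_neg (by linarith), hs1, norm_smul,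
      Real.norm_of_nonneg hs0.le, ← he₁] at h1
    linarith
  have hs3 : s ≤ 3 := by
    have h1 : s * e₁ ≤ s * (1 / 3) :=
      mul_le_mul_of_nonneg_left (he₁ρ.trans hρ1) hs0.le
    linarith
  have hse : s * e₁ ≤ 3 * e₁ := mul_le_mul_of_nonneg_right hs3 he₁0
  have hclose : ‖x₀ + ustar‖ ≤ 6 * e₁ := by
    have e : x₀ + ustar = (2 - s) • x₀ + s • (x₀ - b) := by
      rw [hsub, sub_smul, sub_smul, two_smul, one_smul]
      abel
    rw [e]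
    refine (norm_add_le _ _).trans ?_
    rw [norm_smul, hx₀, mul_one, Real.norm_eq_abs, norm_smul, Real.norm_of_nonneg hs0.le, ← he₁]
    have h2 : |2 - s| ≤ 3 * e₁ := by
      rw [abs_le]
      constructor <;> linarith
    linarith
  -- the estimate
  obtain ⟨c, hc⟩ : ∃ c, c = η / (2 * ε) := ⟨_, rfl⟩
  have hc0 : 0 < c := by
    rw [hc]
    positivity
  obtain ⟨ξ, hξ⟩ : ∃ ξ, ξ = min (η / 8) (ε' * c / 4) := ⟨_, rfl⟩
  have hξ0 : 0 < ξ := by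
    rw [hξ]
    positivity
  have hξ1 : ξ ≤ η / 8 := hξ ▸ min_le_left _ _
  have hξ2 : ξ ≤ ε' * c / 4 := hξ ▸ min_le_right _ _
  obtain ⟨u, φ, Φ, hch, huu⟩ := exists_chord H hx₀ hs1 hs2 hξ0
  -- the functional at the target
  have hy₀ : ‖g x₀‖ = 1 := H.map_g _ hx₀
  have hgu : ‖g u‖ = 1 := H.map_g _ hch.unit
  have hsum : ‖g x₀ + g u‖ ≤ 6 * e₁ + ξ := by
    rw [norm_add_image H hx₀ hch.unit]
    have e : x₀ + u = (x₀ + ustar) + (u - ustar) := by abel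
    rw [e]
    refine (norm_add_le _ _).trans ?_
    linarith
  have hΦy : 1 - (6 * e₁ + ξ) ≤ Φ (g x₀) := by
    have h1 : Φ (g x₀ - g u) = ‖g x₀ - g u‖ := hch.Φval
    have h2 : 2 - (6 * e₁ + ξ) ≤ ‖g x₀ - g u‖ := by
      have e : (2 : ℝ) • g x₀ = (g x₀ - g u) + (g x₀ + g u) := by
        rw [two_smul]
        abel
      have h3 : ‖(2 : ℝ) • g x₀‖ ≤ ‖g x₀ - g u‖ + ‖g x₀ + g u‖ := by
        rw [e]
        exact norm_add_le _ _
      rw [norm_smul, hy₀] at h3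
      norm_num at h3
      linarith
    have h4 : Φ (g x₀ + g u) ≥ -(6 * e₁ + ξ) := by
      have := (abs_le.1 (functional_le Φ hch.Φle (x := g x₀ + g u))).1
      linarith
    rw [map_sub] at h1
    rw [map_add] at h4
    linarith
  have hΦz : c ≤ Φ (L a) := by
    have h1 : Φ (g x₀ - ε • L a) ≤ ‖g x₀ - ε • L a‖ := fle Φ hch.Φle _
    rw [map_sub, map_smul, smul_eq_mul] at h1
    have h2 : 6 * e₁ ≤ η / 8 := by
      have : 6 * e₁ ≤ 6 * (η / 48) := by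
        have := he₁ρ.trans hρ2
        linarith
      linarith
    have h3 : η / 2 ≤ ε * Φ (L a) := by
      rw [hη] at h2 hξ1 ⊢
      linarith
    rw [hc, div_le_iff₀ (by positivity)]
    nlinarith
  -- the norm of `b`
  have hbb : ‖s⁻¹ • (x₀ - u) - b‖ ≤ ξ := by
    have e : s⁻¹ • (x₀ - u) - b = s⁻¹ • (ustar - u) := by
      rw [hustar, smul_sub, smul_sub, smul_sub, smul_smul, inv_mul_cancel₀ hs0.ne', one_smul]
      abel
    rw [e, norm_smul, norm_inv, Real.norm_of_nonneg hs0.le, norm_sub_rev]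
    have hinv : s⁻¹ ≤ 1 := inv_le_one_of_one_le₀ hs.le
    have := mul_le_mul hinv huu.le (norm_nonneg _) zero_le_one
    linarith
  have hnb : ‖b‖ ≤ φ b + 2 * ξ := by
    have h1 : ‖s⁻¹ • (x₀ - u)‖ = φ (s⁻¹ • (x₀ - u)) := by
      rw [map_smul, hch.φval, norm_smul, norm_inv, Real.norm_of_nonneg hs0.le, smul_eq_mul]
    have h2 : ‖b‖ ≤ ‖s⁻¹ • (x₀ - u)‖ + ‖s⁻¹ • (x₀ - u) - b‖ := by
      have := norm_sub_norm_le b (s⁻¹ • (x₀ - u))
      rw [norm_sub_rev b] at this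
      linarith
    have h3 : φ (s⁻¹ • (x₀ - u)) ≤ φ b + ξ := by
      have e : φ (s⁻¹ • (x₀ - u)) = φ b + φ (s⁻¹ • (x₀ - u) - b) := by
        rw [map_sub]
        ring
      rw [e]
      have := (abs_le.1 (functional_le φ hch.φle (x := s⁻¹ • (x₀ - u) - b))).2
      linarith
    linarith
  have hφb : φ b = φ x₀ - ε' * Φ (L a) := by
    rw [hb, map_sub, map_smul, smul_eq_mul, hL u φ Φ hch]
  have hφx : φ x₀ ≤ 1 := by
    have := fle φ hch.φle x₀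
    rwa [hx₀] at this
  have hfin : ‖b‖ < 1 := by
    have h1 : ε' * c ≤ ε' * Φ (L a) := mul_le_mul_of_nonneg_left hΦz hε'0.le
    have h2 : 0 < ε' * c := by positivity
    rw [hφb] at hnb
    linarith
  exact ⟨ε', hε'0, by rwa [← hb]⟩

/-- On the cone of chords the relation does not decrease the norm. -/
lemma norm_le_of_inP (H : SphereIso g h) {x₀ : X} (hx₀ : ‖x₀‖ = 1) {L : X →L[ℝ] Y}
    (hL : ∀ u φ Φ, IsChord g x₀ u φ Φ → ∀ z, Φ (L z) = φ z) {a : X} (ha : InP x₀ a) :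
    ‖a‖ ≤ ‖L a‖ := by
  obtain ⟨ε, hε, hlt⟩ := ha
  obtain ⟨s, hs, hs1, hs2⟩ := exit_of_mem hx₀ hε hlt
  have hs0 : 0 < s := hε.trans hs
  refine le_of_forall_pos_le_add fun ξ hξ => ?_
  have hsξ : 0 < s * (ξ / 2) := by positivity
  obtain ⟨u, φ, Φ, hch, huu⟩ := exists_chord H hx₀ hs1 hs2 hsξ
  have hbb : ‖s⁻¹ • (x₀ - u) - a‖ ≤ ξ / 2 := by
    have e : s⁻¹ • (x₀ - u) - a = s⁻¹ • ((x₀ - s • a) - u) := by
      rw [smul_sub, smul_sub, smul_sub, smul_smul, inv_mul_cancel₀ hs0.ne', one_smul]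
      abel
    rw [e, norm_smul, norm_inv, Real.norm_of_nonneg hs0.le, norm_sub_rev, inv_mul_le_iff₀ hs0]
    exact huu.le
  have h1 : ‖s⁻¹ • (x₀ - u)‖ = φ (s⁻¹ • (x₀ - u)) := by
    rw [map_smul, hch.φval, norm_smul, norm_inv, Real.norm_of_nonneg hs0.le, smul_eq_mul]
  have h2 : ‖a‖ ≤ ‖s⁻¹ • (x₀ - u)‖ + ‖s⁻¹ • (x₀ - u) - a‖ := by
    have := norm_sub_norm_le a (s⁻¹ • (x₀ - u))
    rw [norm_sub_rev a] at this
    linarith
  have h3 : φ (s⁻¹ • (x₀ - u)) ≤ φ a + ξ / 2 := by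
    have e : φ (s⁻¹ • (x₀ - u)) = φ a + φ (s⁻¹ • (x₀ - u) - a) := by
      rw [map_sub]
      ring
    rw [e]
    have := (abs_le.1 (functional_le φ hch.φle (x := s⁻¹ • (x₀ - u) - a))).2
    linarith
  have h4 : φ a = Φ (L a) := (hL u φ Φ hch a).symm
  have h5 : Φ (L a) ≤ ‖L a‖ := fle Φ hch.Φle _
  linarith

/-- The chord to a point with smooth exposed direction is mapped linearly. -/
lemma chord_linear (H : SphereIso g h) {x₀ : X} (hx₀ : ‖x₀‖ = 1) {L : X →L[ℝ] Y}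
    (hL : ∀ u φ Φ, IsChord g x₀ u φ Φ → ∀ z, Φ (L z) = φ z)
    (hsurj : Function.Surjective L) {u₀ : X} (hu₀ : ‖u₀‖ = 1) (hmid : ‖x₀ + u₀‖ < 2)
    (hG : GoodDir (x₀ - u₀)) : g x₀ - g u₀ = L (x₀ - u₀) := by
  obtain ⟨a, ha⟩ := hsurj (g x₀ - g u₀)
  obtain ⟨m₀, hm₀⟩ : ∃ m₀, m₀ = x₀ - u₀ := ⟨_, rfl⟩
  rw [← hm₀] at hG ⊢
  have hiso : ‖g x₀ - g u₀‖ = ‖m₀‖ := by
    rw [hm₀]
    exact H.iso x₀ u₀ hx₀ hu₀
  have hin : InP x₀ a := by
    refine transfer_inP H hx₀ hL (ε := 1 / 2) (by norm_num) ?_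
    rw [ha]
    have e : g x₀ - (1 / 2 : ℝ) • (g x₀ - g u₀) = (1 / 2 : ℝ) • (g x₀ + g u₀) := by
      rw [smul_sub, smul_add]
      have : g x₀ = (1 / 2 : ℝ) • g x₀ + (1 / 2 : ℝ) • g x₀ := by
        rw [← add_smul]
        norm_num
      nth_rewrite 1 [this]
      abel
    rw [e, norm_smul, norm_add_image H hx₀ hu₀]
    norm_num
    linarith
  have hle : ‖a‖ ≤ ‖m₀‖ := by
    have := norm_le_of_inP H hx₀ hL hin
    rwa [ha, hiso] at this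
  -- the lower bound along the ray
  have hray : ∀ t : ℝ, 0 < t → (1 + t) * ‖m₀‖ ≤ ‖m₀ + t • a‖ := by
    intro t ht
    refine le_of_forall_pos_le_add fun δ hδ => ?_
    obtain ⟨ξ, hξ⟩ : ∃ ξ, ξ = δ / (2 + 2 * t) := ⟨_, rfl⟩
    have hξ0 : 0 < ξ := by
      rw [hξ]
      positivity
    obtain ⟨u, φ, Φ, hch, huu⟩ := exists_chord H hx₀ hu₀ hmid hξ0
    have hmm : ‖(x₀ - u) - m₀‖ < ξ := by
      have e : (x₀ - u) - m₀ = -(u - u₀) := by
        rw [hm₀]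
        abel
      rw [e, norm_neg]
      exact huu
    have hmm' : ‖(g x₀ - g u) - (g x₀ - g u₀)‖ < ξ := by
      have e : (g x₀ - g u) - (g x₀ - g u₀) = -(g u - g u₀) := by abel
      rw [e, norm_neg, H.iso u u₀ hch.unit hu₀]
      exact huu
    have h1 : φ a = Φ (g x₀ - g u₀) := by
      rw [← ha]
      exact (hL u φ Φ hch a).symm
    have h2 : ‖g x₀ - g u‖ - ξ ≤ Φ (g x₀ - g u₀) := by
      have e : Φ (g x₀ - g u₀) = Φ (g x₀ - g u) - Φ ((g x₀ - g u) - (g x₀ - g u₀)) := by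
        rw [map_sub Φ (g x₀ - g u)]
        ring
      rw [e, hch.Φval]
      have := (abs_le.1 (functional_le Φ hch.Φle (x := (g x₀ - g u) - (g x₀ - g u₀)))).2
      linarith
    have h3 : ‖m₀‖ - ξ ≤ ‖g x₀ - g u‖ := by
      have := norm_sub_norm_le (g x₀ - g u₀) (g x₀ - g u)
      rw [norm_sub_rev (g x₀ - g u₀), hiso] at this
      linarith
    have h4 : φ m₀ ≥ ‖x₀ - u‖ - ξ := by
      have e : φ m₀ = φ (x₀ - u) - φ ((x₀ - u) - m₀) := by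
        rw [map_sub φ (x₀ - u)]
        ring
      rw [e, hch.φval]
      have := (abs_le.1 (functional_le φ hch.φle (x := (x₀ - u) - m₀))).2
      linarith
    have h5 : ‖m₀‖ - ξ ≤ ‖x₀ - u‖ := by
      have := norm_sub_norm_le m₀ (x₀ - u)
      rw [norm_sub_rev m₀] at this
      linarith
    have h6 : φ (m₀ + t • a) ≤ ‖m₀ + t • a‖ := fle φ hch.φle _
    rw [map_add, map_smul, smul_eq_mul, h1] at h6
    have h7 : t * (‖m₀‖ - 2 * ξ) ≤ t * Φ (g x₀ - g u₀) :=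
      mul_le_mul_of_nonneg_left (by linarith) ht.le
    have h8 : (2 + 2 * t) * ξ = δ := by
      rw [hξ]
      field_simp
    nlinarith
  -- differentiate
  have hder : ‖m₀‖ ≤ chi m₀ a := by
    by_contra hcon
    push Not at hcon
    obtain ⟨κ, hκ⟩ : ∃ κ, κ = ‖m₀‖ - chi m₀ a := ⟨_, rfl⟩
    have hκ0 : 0 < κ := by linarith
    have h1 : HasFDerivAt (fun z : X => ‖z‖) (chi m₀) m₀ := hG.1.hasFDerivAt
    have h2 : HasDerivAt (fun t : ℝ => m₀ + t • a) a 0 := by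
      simpa using ((hasDerivAt_id (0 : ℝ)).smul_const a).const_add m₀
    have h3 : HasFDerivAt (fun z : X => ‖z‖) (chi m₀) (m₀ + (0 : ℝ) • a) := by
      simpa using h1
    have h4 := h3.comp_hasDerivAt (0 : ℝ) h2
    have h5 := (hasDerivAt_iff_isLittleO_nhds_zero.1 h4).def (c := κ / 2) (by positivity)
    obtain ⟨δ, hδ, hb⟩ := Metric.eventually_nhds_iff.1 h5
    have h6 := @hb (δ / 2) (by
      rw [Real.dist_eq, sub_zero, abs_of_pos (by positivity)]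
      linarith)
    have h7 := hray (δ / 2) (by positivity)
    simp only [Function.comp_apply, zero_add, zero_smul, add_zero, smul_eq_mul] at h6
    rw [Real.norm_eq_abs, Real.norm_eq_abs, abs_of_pos (by positivity : 0 < δ / 2)] at h6
    have h8 := (abs_le.1 h6).2
    have h9 : (δ / 2) * κ = (δ / 2) * ‖m₀‖ - (δ / 2) * chi m₀ a := by
      rw [hκ]
      ring
    nlinarith
  have hup : chi m₀ a ≤ ‖a‖ := chi_le _ _
  have hEq : ‖a‖ = ‖m₀‖ := le_antisymm hle (hder.trans hup)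
  have hEq2 : chi m₀ a = ‖m₀‖ := le_antisymm (hup.trans hle) hder
  have := hG.2 a hEq hEq2
  rw [← ha, this]

/-- Smooth exposed chord directions accumulate at any transversal chord. -/
lemma exists_goodDir_chord (hE : Dense {w : X | GoodDir w}) {x₀ u₁ : X} (hx₀ : ‖x₀‖ = 1)
    (hu₁ : ‖u₁‖ = 1) (hmid : ‖x₀ + u₁‖ < 2) {ξ : ℝ} (hξ : 0 < ξ) :
    ∃ u₀ : X, ‖u₀‖ = 1 ∧ ‖x₀ + u₀‖ < 2 ∧ GoodDir (x₀ - u₀) ∧ ‖u₀ - u₁‖ < ξ := by
  obtain ⟨m₁, hm₁⟩ : ∃ m₁, m₁ = x₀ - u₁ := ⟨_, rfl⟩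
  have hone : ‖x₀ - (1 : ℝ) • m₁‖ = 1 := by
    rw [hm₁, one_smul, sub_sub_cancel, hu₁]
  obtain ⟨c, hc⟩ : ∃ c, c = 1 - ‖x₀ - (1 / 2 : ℝ) • m₁‖ := ⟨_, rfl⟩
  have hhalf : x₀ - (1 / 2 : ℝ) • m₁ = (1 / 2 : ℝ) • (x₀ + u₁) := by
    rw [hm₁, smul_sub, smul_add]
    have : x₀ = (1 / 2 : ℝ) • x₀ + (1 / 2 : ℝ) • x₀ := by
      rw [← add_smul]
      norm_num
    nth_rewrite 1 [this]
    abel
  have hc0 : 0 < c := by
    rw [hc, hhalf, norm_smul]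
    norm_num
    linarith
  have hc1 : c ≤ 1 := by
    rw [hc]
    have := norm_nonneg (x₀ - (1 / 2 : ℝ) • m₁)
    linarith
  obtain ⟨d, hd⟩ : ∃ d, d = 2 - ‖x₀ + u₁‖ := ⟨_, rfl⟩
  have hd0 : 0 < d := by linarith
  obtain ⟨A, hA⟩ : ∃ A, A = ‖m₁‖ + 2 := ⟨_, rfl⟩
  have hA0 : 0 < A := by
    rw [hA]
    positivity
  obtain ⟨ξ', hξ'⟩ : ∃ ξ', ξ' = min ξ d := ⟨_, rfl⟩
  have hξ'0 : 0 < ξ' := by
    rw [hξ']
    exact lt_min hξ hd0
  obtain ⟨δ, hδ⟩ : ∃ δ, δ = min (1 / 2 : ℝ) (ξ' / (2 * A)) := ⟨_, rfl⟩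
  have hδ0 : 0 < δ := by
    rw [hδ]
    positivity
  have hδ1 : δ ≤ 1 / 2 := hδ ▸ min_le_left _ _
  have hδ2 : δ * (2 * A) ≤ ξ' := by
    have : δ ≤ ξ' / (2 * A) := hδ ▸ min_le_right _ _
    rwa [le_div_iff₀ (by positivity)] at this
  obtain ⟨m, hmb, hmG⟩ := Metric.dense_iff.1 hE m₁ (c * δ) (by positivity)
  rw [mem_ball, dist_eq_norm] at hmb
  have hmG' : GoodDir m := hmG
  obtain ⟨e, he⟩ : ∃ e, e = ‖m - m₁‖ := ⟨_, rfl⟩
  have he0 : 0 ≤ e := he ▸ norm_nonneg _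
  have hecδ : e < c * δ := by
    rw [he]
    exact hmb
  have heδ : e ≤ δ := by
    have : c * δ ≤ 1 * δ := mul_le_mul_of_nonneg_right hc1 hδ0.le
    linarith
  have hcmp : ∀ t : ℝ, 0 ≤ t → |‖x₀ - t • m‖ - ‖x₀ - t • m₁‖| ≤ t * e := by
    intro t ht
    refine (abs_norm_sub_norm_le _ _).trans ?_
    have e1 : x₀ - t • m - (x₀ - t • m₁) = -(t • (m - m₁)) := by
      rw [smul_sub]
      abel
    rw [e1, norm_neg, norm_smul, Real.norm_of_nonneg ht, he]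
  -- convexity along the chord
  have hlow : ‖x₀ - (1 - δ) • m₁‖ ≤ 1 - 2 * c * δ := by
    have e1 : x₀ - (1 - δ) • m₁ = (1 - 2 * δ) • (x₀ - (1 : ℝ) • m₁) +
        (2 * δ) • (x₀ - (1 / 2 : ℝ) • m₁) := by
      module
    rw [e1]
    refine (norm_add_le _ _).trans ?_
    rw [norm_smul, norm_smul, hone, Real.norm_of_nonneg (by linarith),
      Real.norm_of_nonneg (by positivity), hc]
    nlinarith
  have hhigh : 1 + 2 * c * δ ≤ ‖x₀ - (1 + δ) • m₁‖ := by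
    have hden : 0 < 1 + 2 * δ := by positivity
    obtain ⟨a₁, ha₁⟩ : ∃ a₁ : ℝ, a₁ = 1 / (1 + 2 * δ) := ⟨_, rfl⟩
    obtain ⟨a₂, ha₂⟩ : ∃ a₂ : ℝ, a₂ = (2 * δ) / (1 + 2 * δ) := ⟨_, rfl⟩
    have ha₁0 : 0 < a₁ := by
      rw [ha₁]
      positivity
    have ha₂0 : 0 < a₂ := by
      rw [ha₂]
      positivity
    have e2 : a₁ * (1 + δ) + a₂ * (1 / 2) = 1 := by
      rw [ha₁, ha₂]
      field_simp
      ring
    have e3 : a₁ + a₂ = 1 := by
      rw [ha₁, ha₂]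
      field_simp
    have e1 : x₀ - (1 : ℝ) • m₁ = a₁ • (x₀ - (1 + δ) • m₁) + a₂ • (x₀ - (1 / 2 : ℝ) • m₁) := by
      have e4 : a₁ • (x₀ - (1 + δ) • m₁) + a₂ • (x₀ - (1 / 2 : ℝ) • m₁) =
          (a₁ + a₂) • x₀ - (a₁ * (1 + δ) + a₂ * (1 / 2)) • m₁ := by
        module
      rw [e4, e2, e3, one_smul ℝ x₀]
    have h1 : (1 : ℝ) ≤ a₁ * ‖x₀ - (1 + δ) • m₁‖ + a₂ * (1 - c) := by
      have h2 := norm_add_le (a₁ • (x₀ - (1 + δ) • m₁)) (a₂ • (x₀ - (1 / 2 : ℝ) • m₁))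
      rw [← e1, hone, norm_smul, norm_smul, Real.norm_of_nonneg ha₁0.le,
        Real.norm_of_nonneg ha₂0.le] at h2
      have h3 : ‖x₀ - (1 / 2 : ℝ) • m₁‖ = 1 - c := by
        rw [hc]
        ring
      rwa [h3] at h2
    have h4 : a₁ * (1 + 2 * δ) = 1 := by
      rw [ha₁]
      field_simp
    have h5 : a₂ * (1 + 2 * δ) = 2 * δ := by
      rw [ha₂]
      field_simp
    have h6 : (1 : ℝ) * (1 + 2 * δ) ≤
        (a₁ * ‖x₀ - (1 + δ) • m₁‖ + a₂ * (1 - c)) * (1 + 2 * δ) :=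
      mul_le_mul_of_nonneg_right h1 hden.le
    have h7 : (a₁ * ‖x₀ - (1 + δ) • m₁‖ + a₂ * (1 - c)) * (1 + 2 * δ) =
        (a₁ * (1 + 2 * δ)) * ‖x₀ - (1 + δ) • m₁‖ + (a₂ * (1 + 2 * δ)) * (1 - c) := by
      ring
    rw [h7, h4, h5] at h6
    nlinarith
  -- the intermediate value theorem
  have hcont : ContinuousOn (fun t : ℝ => ‖x₀ - t • m‖) (Icc (1 - δ) (1 + δ)) := by
    refine Continuous.continuousOn ?_
    fun_prop
  have hv1 : ‖x₀ - (1 - δ) • m‖ < 1 := by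
    have h1 := (abs_le.1 (hcmp (1 - δ) (by linarith))).2
    have h2 : (1 - δ) * e ≤ 1 * e := mul_le_mul_of_nonneg_right (by linarith) he0
    have h3 : 0 < c * δ := by positivity
    nlinarith
  have hv2 : 1 < ‖x₀ - (1 + δ) • m‖ := by
    have h1 := (abs_le.1 (hcmp (1 + δ) (by linarith))).1
    have h2 : (1 + δ) * e ≤ (3 / 2) * e := mul_le_mul_of_nonneg_right (by linarith) he0
    have h3 : 0 < c * δ := by positivity
    nlinarith
  have hlt : 1 - δ < 1 + δ := by linarith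
  obtain ⟨t, ht, htv⟩ := intermediate_value_Ioo hlt.le hcont ⟨hv1, hv2⟩
  have ht0 : 0 < t := by
    have := ht.1
    linarith
  simp only at htv
  obtain ⟨u₀, hu₀⟩ : ∃ u₀, u₀ = x₀ - t • m := ⟨_, rfl⟩
  have hclose : ‖u₀ - u₁‖ ≤ δ * (2 * A) / 2 := by
    have e1 : u₀ - u₁ = (1 - t) • m₁ - t • (m - m₁) := by
      rw [hu₀, hm₁]
      module
    rw [e1]
    refine (norm_sub_le _ _).trans ?_
    rw [norm_smul, norm_smul, Real.norm_of_nonneg ht0.le, ← he, Real.norm_eq_abs]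
    have h1 : |1 - t| ≤ δ := by
      rw [abs_le]
      constructor
      · have := ht.2
        linarith
      · have := ht.1
        linarith
    have h2 : |1 - t| * ‖m₁‖ ≤ δ * ‖m₁‖ := mul_le_mul_of_nonneg_right h1 (norm_nonneg _)
    have h3 : t * e ≤ 2 * δ := by
      have h4 : t ≤ 2 := by
        have := ht.2
        linarith
      have h5 : t * e ≤ 2 * e := mul_le_mul_of_nonneg_right h4 he0
      linarith
    have h6 : δ * (2 * A) / 2 = δ * ‖m₁‖ + 2 * δ := by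
      rw [hA]
      ring
    linarith
  have hAδ : 0 < δ * (2 * A) := by positivity
  have hclose' : ‖u₀ - u₁‖ < ξ' := by linarith
  refine ⟨u₀, by rw [hu₀]; exact htv, ?_, ?_, ?_⟩
  · have e1 : x₀ + u₀ = (x₀ + u₁) + (u₀ - u₁) := by abel
    rw [e1]
    refine (norm_add_le _ _).trans_lt ?_
    have h1 : ξ' ≤ d := hξ' ▸ min_le_right _ _
    rw [hd] at h1
    linarith
  · have e1 : x₀ - u₀ = t • m := by
      rw [hu₀, sub_sub_cancel]
    rw [e1]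
    exact hmG'.smul ht0
  · have h1 : ξ' ≤ ξ := hξ' ▸ min_le_left _ _
    linarith

/-- The affine form of the map on transversal chords. -/
lemma form_of_mid (H : SphereIso g h) {x₀ : X} (hx₀ : ‖x₀‖ = 1) {L : X →L[ℝ] Y}
    (hL : ∀ u φ Φ, IsChord g x₀ u φ Φ → ∀ z, Φ (L z) = φ z)
    (hsurj : Function.Surjective L) (hE : Dense {w : X | GoodDir w}) {u₁ : X} (hu₁ : ‖u₁‖ = 1)
    (hmid : ‖x₀ + u₁‖ < 2) : g u₁ = g x₀ - L (x₀ - u₁) := by
  refine eq_of_forall_dist_le fun ξ hξ => ?_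
  obtain ⟨ξ₁, hξ₁⟩ : ∃ ξ₁, ξ₁ = ξ / (1 + ‖L‖) := ⟨_, rfl⟩
  have hLpos : 0 < 1 + ‖L‖ := by positivity
  have hξ₁0 : 0 < ξ₁ := by
    rw [hξ₁]
    positivity
  obtain ⟨u₀, hu₀, hm₀, hG, hc⟩ := exists_goodDir_chord hE hx₀ hu₁ hmid hξ₁0
  have h1 := chord_linear H hx₀ hL hsurj hu₀ hm₀ hG
  have e1 : g u₀ = g x₀ - L (x₀ - u₀) := by
    rw [← h1]
    abel
  rw [dist_eq_norm]
  have e2 : g u₁ - (g x₀ - L (x₀ - u₁)) = (g u₁ - g u₀) + L (u₀ - u₁) := by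
    rw [e1]
    simp only [map_sub]
    abel
  rw [e2]
  refine (norm_add_le _ _).trans ?_
  rw [H.iso _ _ hu₁ hu₀, norm_sub_rev u₁]
  have h3 := L.le_opNorm (u₀ - u₁)
  have h4 : (1 + ‖L‖) * ξ₁ = ξ := by
    rw [hξ₁]
    field_simp
  have h5 : ‖L‖ * ‖u₀ - u₁‖ ≤ ‖L‖ * ξ₁ := mul_le_mul_of_nonneg_left hc.le (norm_nonneg _)
  nlinarith

omit [FiniteDimensional ℝ X] [Nontrivial X] in
/-- A norm-one direction of differentiability other than `x₀` is transversal to `x₀`. -/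
lemma mid_of_goodDir {x₀ u : X} (hx₀ : ‖x₀‖ = 1) (hu : ‖u‖ = 1) (hG : GoodDir u) (hne : u ≠ x₀) :
    ‖x₀ + u‖ < 2 := by
  refine lt_of_le_of_ne ?_ ?_
  · have := norm_add_le x₀ u
    rw [hx₀, hu] at this
    linarith
  · intro hsum
    obtain ⟨ψ, hψ1, hψ2⟩ := exists_dual_vector'' ℝ (x₀ + u)
    have hψle : ‖ψ‖ ≤ 1 := hψ1
    have h2 : ψ (x₀ + u) = 2 := by
      have h2' : ψ (x₀ + u) = ‖x₀ + u‖ := by
        simpa using hψ2
      rw [h2', hsum]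
    rw [map_add] at h2
    have h3 : ψ x₀ ≤ 1 := by
      have := fle ψ hψle x₀
      rwa [hx₀] at this
    have h4 : ψ u ≤ 1 := by
      have := fle ψ hψle u
      rwa [hu] at this
    have h5 : ψ x₀ = 1 := by linarith
    have h6 : ψ u = 1 := by linarith
    have h7 : chi u = ψ := by
      refine functional_eq_of_differentiableAt hG.1 (chi_norm_le u) hψle ?_ ?_
      · exact hG.1.fderiv_norm_self
      · rw [h6, hu]
    refine hne (hG.2 x₀ ?_ ?_).symm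
    · rw [hx₀, hu]
    · rw [h7, h5, hu]

/-- The affine form of the map on the whole sphere. -/
lemma form_all (H : SphereIso g h) {x₀ : X} (hx₀ : ‖x₀‖ = 1) {L : X →L[ℝ] Y}
    (hL : ∀ u φ Φ, IsChord g x₀ u φ Φ → ∀ z, Φ (L z) = φ z)
    (hsurj : Function.Surjective L) (hE : Dense {w : X | GoodDir w}) {u₁ : X} (hu₁ : ‖u₁‖ = 1) :
    g u₁ = g x₀ - L (x₀ - u₁) := by
  refine eq_of_forall_dist_le fun ξ hξ => ?_
  obtain ⟨ξ₁, hξ₁⟩ : ∃ ξ₁, ξ₁ = min (1 / 2 : ℝ) (ξ / (4 * (1 + ‖L‖))) := ⟨_, rfl⟩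
  have hLpos : 0 < 1 + ‖L‖ := by positivity
  have hξ₁0 : 0 < ξ₁ := by
    rw [hξ₁]
    positivity
  have hξ₁1 : ξ₁ ≤ 1 / 2 := hξ₁ ▸ min_le_left _ _
  have hξ₁2 : ξ₁ * (4 * (1 + ‖L‖)) ≤ ξ := by
    have : ξ₁ ≤ ξ / (4 * (1 + ‖L‖)) := hξ₁ ▸ min_le_right _ _
    rwa [le_div_iff₀ (by positivity)] at this
  obtain ⟨w, hwb, hwG⟩ := Metric.dense_iff.1 hE u₁ ξ₁ hξ₁0
  rw [mem_ball, dist_eq_norm] at hwb
  have hw0 : w ≠ 0 := by
    rintro rfl
    rw [zero_sub, norm_neg, hu₁] at hwb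
    linarith
  have hwn : 0 < ‖w‖ := norm_pos_iff.2 hw0
  have hwn2 : 1 / 2 ≤ ‖w‖ := by
    have := norm_sub_norm_le u₁ w
    rw [hu₁, norm_sub_rev] at this
    linarith
  obtain ⟨u₂, hu₂⟩ : ∃ u₂ : X, u₂ = ‖w‖⁻¹ • w := ⟨_, rfl⟩
  have hu₂1 : ‖u₂‖ = 1 := by
    rw [hu₂, norm_smul, norm_inv, norm_norm, inv_mul_cancel₀ hwn.ne']
  have hu₂G : GoodDir u₂ := by
    rw [hu₂]
    exact GoodDir.smul hwG (inv_pos.2 hwn)
  have hd : ‖u₂ - u₁‖ ≤ 4 * ξ₁ := by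
    have h1 := normalize_dist (v₀ := u₁) hw0
    rw [hu₁, inv_one, one_smul, ← hu₂] at h1
    refine h1.trans ?_
    rw [div_le_iff₀ hwn]
    have h2 : (4 * ξ₁) * (1 / 2) ≤ (4 * ξ₁) * ‖w‖ :=
      mul_le_mul_of_nonneg_left hwn2 (by positivity)
    linarith
  have hform : g u₂ = g x₀ - L (x₀ - u₂) := by
    by_cases hne : u₂ = x₀
    · rw [hne, sub_self, map_zero, sub_zero]
    · exact form_of_mid H hx₀ hL hsurj hE hu₂1 (mid_of_goodDir hx₀ hu₂1 hu₂G hne)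
  rw [dist_eq_norm]
  have e2 : g u₁ - (g x₀ - L (x₀ - u₁)) = (g u₁ - g u₂) + L (u₂ - u₁) := by
    rw [hform]
    simp only [map_sub]
    abel
  rw [e2]
  refine (norm_add_le _ _).trans ?_
  rw [H.iso _ _ hu₁ hu₂1, norm_sub_rev u₁]
  have h3 := L.le_opNorm (u₂ - u₁)
  have h5 : ‖L‖ * ‖u₂ - u₁‖ ≤ ‖L‖ * (4 * ξ₁) := mul_le_mul_of_nonneg_left hd (norm_nonneg _)
  nlinarith

/-- **The far chord theorem, core form.** -/
theorem far_main (H : SphereIso g h) (hE : Dense {w : X | GoodDir w}) {x₀ : X} (hx₀ : ‖x₀‖ = 1)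
    (hR : ¬ Reg x₀) : ∃ T : X ≃ₗᵢ[ℝ] Y, ∀ x, ‖x‖ = 1 → T x = g x := by
  obtain ⟨L, hL⟩ := exists_exact H hx₀ hR
  have hinj : Function.Injective L := by
    rw [injective_iff_map_eq_zero]
    intro z hz
    refine span_X H hx₀ fun u φ Φ hc => ?_
    rw [← hL u φ Φ hc z, hz, map_zero]
  have hsurj : Function.Surjective L :=
    (LinearMap.injective_iff_surjective_of_finrank_eq_finrank (f := (L : X →ₗ[ℝ] Y))
      (finrank_eq H)).1 hinj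
  have hform : ∀ u, ‖u‖ = 1 → g u = g x₀ - L (x₀ - u) :=
    fun u hu => form_all H hx₀ hL hsurj hE hu
  have hneg : L x₀ = g x₀ := by
    have h1 := hform (-x₀) (by rwa [norm_neg])
    rw [sphere_odd H hx₀, sub_neg_eq_add, map_add] at h1
    have h2 : (2 : ℝ) • g x₀ = (2 : ℝ) • L x₀ := by
      rw [two_smul, two_smul]
      have h4 : -g x₀ + (L x₀ + L x₀) = g x₀ := by
        rw [h1]
        abel
      calc g x₀ + g x₀ = g x₀ - (-g x₀) := by abel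
        _ = (-g x₀ + (L x₀ + L x₀)) - (-g x₀) := by rw [h4]
        _ = L x₀ + L x₀ := by abel
    exact (smul_right_injective Y (two_ne_zero (α := ℝ)) h2).symm
  refine exists_linearIsometryEquiv_of_agree H (L : X →ₗ[ℝ] Y) fun u hu => ?_
  have h1 := hform u hu
  rw [map_sub, hneg] at h1
  simp only [ContinuousLinearMap.coe_coe]
  rw [h1]
  abel

end Main

end Vale.Agent.Lib.P084.Far
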