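import Mathlib
import Vale.Agent.Lib.P084.Far.Final
import Vale.Agent.Lib.P084.Interface

/-! Final forms of the far-chord theorem. -/

namespace Vale.Agent.Lib.P084.Far

open Set Metric Filter Topology

section

variable {X Y : Type*} [NormedAddCommGroup X] [NormedSpace ℝ X]
  [NormedAddCommGroup Y] [NormedSpace ℝ Y]

/-- Unbounded second differences at a point negate `Reg`. -/
lemma not_reg_of {x₀ : X} (hx₀ : ‖x₀‖ = 1)
    (hR : ∀ C δ : ℝ, 0 < δ → ∃ z : X, ‖z‖ < δ ∧ C * ‖z‖ ^ 2 < ‖x₀ + z‖ + ‖x₀ - z‖ - 2) :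
    ¬ Reg x₀ := by
  rintro ⟨C, hC⟩
  obtain ⟨δ, hδ, hb⟩ := Metric.eventually_nhds_iff.1 hC
  obtain ⟨z, hz, hlt⟩ := hR C δ hδ
  have h1 := @hb z (by rwa [dist_zero_right])
  rw [hx₀] at h1
  linarith

/-- Points of infinite second difference exist at points of non-differentiability. -/
lemma second_diff_of_not_differentiable {x₀ : X} (hx₀ : ‖x₀‖ = 1)
    (hd : ¬ DifferentiableAt ℝ (fun z : X => ‖z‖) x₀) (C δ : ℝ) (hδ : 0 < δ) :
    ∃ z : X, ‖z‖ < δ ∧ C * ‖z‖ ^ 2 < ‖x₀ + z‖ + ‖x₀ - z‖ - 2 := by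
  by_contra hcon
  push Not at hcon
  refine hd ?_
  obtain ⟨φ, hφ, hφx⟩ := exists_dual_vector'' ℝ x₀
  have hφx' : φ x₀ = 1 := by
    have : φ x₀ = ‖x₀‖ := by simpa using hφx
    rw [this, hx₀]
  have hφle : ∀ v : X, φ v ≤ ‖v‖ := fun v => by
    have h1 := φ.le_opNorm v
    rw [Real.norm_eq_abs] at h1
    have h2 := mul_le_mul_of_nonneg_right hφ (norm_nonneg v)
    have h3 := le_abs_self (φ v)
    linarith
  have hupper : ∀ z : X, ‖z‖ < δ → |‖x₀ + z‖ - 1 - φ z| ≤ C * ‖z‖ ^ 2 := by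
    intro z hz
    have h1 := hcon z hz
    have h2 : 0 ≤ ‖x₀ + z‖ - 1 - φ z := by
      have := hφle (x₀ + z)
      rw [map_add, hφx'] at this
      linarith
    have h3 : 0 ≤ ‖x₀ - z‖ - 1 + φ z := by
      have := hφle (x₀ - z)
      rw [map_sub, hφx'] at this
      linarith
    rw [abs_of_nonneg h2]
    linarith
  have hlo : HasFDerivAt (fun z : X => ‖z‖) (φ : X →L[ℝ] ℝ) x₀ := by
    rw [hasFDerivAt_iff_isLittleO_nhds_zero, Asymptotics.isLittleO_iff]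
    intro ε hε
    have hpos : 0 < min δ (ε / (|C| + 1)) := lt_min hδ (by positivity)
    filter_upwards [Metric.ball_mem_nhds (0 : X) hpos] with z hz
    rw [mem_ball, dist_zero_right] at hz
    have hz1 : ‖z‖ < δ := hz.trans_le (min_le_left _ _)
    have hz2 : ‖z‖ * (|C| + 1) ≤ ε := by
      have := hz.le.trans (min_le_right _ _)
      rwa [le_div_iff₀ (by positivity)] at this
    have h1 := hupper z hz1
    rw [hx₀, Real.norm_eq_abs]
    refine h1.trans ?_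
    have h2 : C * ‖z‖ ^ 2 ≤ |C| * ‖z‖ ^ 2 :=
      mul_le_mul_of_nonneg_right (le_abs_self C) (by positivity)
    have h3 : ‖z‖ * (‖z‖ * (|C| + 1)) ≤ ‖z‖ * ε := mul_le_mul_of_nonneg_left hz2 (norm_nonneg z)
    nlinarith [norm_nonneg z, sq_nonneg ‖z‖]
  exact hlo.differentiableAt

/-- Rademacher's theorem for the norm. -/
lemma dense_differentiable [FiniteDimensional ℝ X] :
    Dense {w : X | DifferentiableAt ℝ (fun z : X => ‖z‖) w} := by
  let _ : MeasurableSpace X := borel X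
  have : BorelSpace X := ⟨rfl⟩
  have h1 := (lipschitzWith_one_norm (E := X)).ae_differentiableAt
    (μ := MeasureTheory.Measure.addHaar)
  exact MeasureTheory.Measure.dense_of_ae h1

/-- In a strictly convex space the smooth exposed directions are dense. -/
lemma dense_goodDir_of_strictConvex [FiniteDimensional ℝ X] [StrictConvexSpace ℝ X] :
    Dense {w : X | GoodDir w} := by
  refine dense_differentiable.mono fun w hw => ⟨hw, fun w' h1 h2 => ?_⟩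
  have hw' : DifferentiableAt ℝ (fun z : X => ‖z‖) w := hw
  have hself : chi w w = ‖w‖ := hw'.fderiv_norm_self
  have h2' : chi w w' = ‖w‖ := h2
  have hle := abs_chi_le w (w' + w)
  rw [map_add, h2', hself] at hle
  have h3 : ‖w' + w‖ = ‖w'‖ + ‖w‖ := by
    refine le_antisymm (norm_add_le _ _) ?_
    have := le_abs_self (‖w‖ + ‖w‖)
    linarith
  exact eq_of_norm_eq_of_norm_add_eq h1 h3

/-- **The far chord theorem.** -/
theorem far_extends [FiniteDimensional ℝ X]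
    (hE : Dense {w : X | DifferentiableAt ℝ (fun z : X => ‖z‖) w ∧
      ∀ w' : X, ‖w'‖ = ‖w‖ → fderiv ℝ (fun z : X => ‖z‖) w w' = ‖w‖ → w' = w})
    {x₀ : X} (hx₀ : ‖x₀‖ = 1)
    (hR : ∀ C δ : ℝ, 0 < δ → ∃ z : X, ‖z‖ < δ ∧ C * ‖z‖ ^ 2 < ‖x₀ + z‖ + ‖x₀ - z‖ - 2)
    (f : sphere (0 : X) 1 ≃ᵢ sphere (0 : Y) 1) :
    ∃ T : X ≃ₗᵢ[ℝ] Y, ∀ x : sphere (0 : X) 1, T x = f x := by
  have hne : x₀ ≠ 0 := by
    rintro rfl
    rw [norm_zero] at hx₀
    norm_num at hx₀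
  have : Nontrivial X := ⟨⟨x₀, 0, hne⟩⟩
  have : FiniteDimensional ℝ Y := finiteDimensional_of_sphere f
  obtain ⟨g, h, H, hgf⟩ := exists_sphereIso f
  obtain ⟨T, hT⟩ := far_main H hE hx₀ (not_reg_of hx₀ hR)
  refine ⟨T, fun x => ?_⟩
  rw [hT x (by simpa using x.2), hgf]

theorem far_strict [FiniteDimensional ℝ X] [StrictConvexSpace ℝ X]
    {x₀ : X} (hx₀ : ‖x₀‖ = 1)
    (hR : ∀ C δ : ℝ, 0 < δ → ∃ z : X, ‖z‖ < δ ∧ C * ‖z‖ ^ 2 < ‖x₀ + z‖ + ‖x₀ - z‖ - 2)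
    (f : sphere (0 : X) 1 ≃ᵢ sphere (0 : Y) 1) :
    ∃ T : X ≃ₗᵢ[ℝ] Y, ∀ x : sphere (0 : X) 1, T x = f x :=
  far_extends dense_goodDir_of_strictConvex hx₀ hR f

theorem corner_strict [FiniteDimensional ℝ X] [StrictConvexSpace ℝ X]
    {x₀ : X} (hx₀ : x₀ ≠ 0) (hd : ¬ DifferentiableAt ℝ (fun z : X => ‖z‖) x₀)
    (f : sphere (0 : X) 1 ≃ᵢ sphere (0 : Y) 1) :
    ∃ T : X ≃ₗᵢ[ℝ] Y, ∀ x : sphere (0 : X) 1, T x = f x := by
  have hn : 0 < ‖x₀‖ := norm_pos_iff.2 hx₀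
  have hu : ‖‖x₀‖⁻¹ • x₀‖ = 1 := by
    rw [norm_smul, norm_inv, norm_norm, inv_mul_cancel₀ hn.ne']
  refine far_strict hu (second_diff_of_not_differentiable hu ?_) f
  intro hd'
  apply hd
  have h1 := (hd'.hasFDerivAt.hasFDerivAt_norm_smul_pos hn).differentiableAt
  have e : ‖x₀‖ • ‖x₀‖⁻¹ • x₀ = x₀ := by
    rw [smul_smul, mul_inv_cancel₀ hn.ne', one_smul]
  rwa [e] at h1

end

end Vale.Agent.Lib.P084.Far
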